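import Mathlib

open scoped RealInnerProductSpace

namespace Vale.Agent.P121

section Ineq

variable {F : Type*} [NormedAddCommGroup F] [InnerProductSpace ℝ F]

/-- The Coulomb force field `w / ‖w‖ ^ 3`. -/
noncomputable def hforce (w : F) : F := (‖w‖ ^ 3)⁻¹ • w

/-- Global quadratic lower bound for the inverse norm. -/
lemma inv_norm_ge (w w' : F) (hw : w ≠ 0) (hw' : w' ≠ 0) :
    ‖w‖⁻¹ - ⟪hforce w, w' - w⟫ - (‖w‖ ^ 3)⁻¹ * ‖w' - w‖ ^ 2 / 2 ≤ ‖w'‖⁻¹ := by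
  have hs : 0 < ‖w‖ := norm_pos_iff.mpr hw
  have ht : 0 < ‖w'‖ := norm_pos_iff.mpr hw'
  have hexp : ‖w'‖ ^ 2 = ‖w‖ ^ 2 + 2 * ⟪w, w' - w⟫ + ‖w' - w‖ ^ 2 := by
    have h := norm_add_sq_real w (w' - w)
    rw [add_sub_cancel] at h
    exact h
  have hin : ⟪hforce w, w' - w⟫ = (‖w‖ ^ 3)⁻¹ * ⟪w, w' - w⟫ := by
    unfold hforce
    rw [real_inner_smul_left]
  rw [hin]
  have hLHS : ‖w‖⁻¹ - (‖w‖ ^ 3)⁻¹ * ⟪w, w' - w⟫ - (‖w‖ ^ 3)⁻¹ * ‖w' - w‖ ^ 2 / 2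
      = ‖w‖⁻¹ - (‖w‖ ^ 3)⁻¹ * (‖w'‖ ^ 2 - ‖w‖ ^ 2) / 2 := by
    rw [hexp]; ring
  rw [hLHS]
  set s := ‖w‖
  set t := ‖w'‖
  have key : t⁻¹ - (s⁻¹ - (s ^ 3)⁻¹ * (t ^ 2 - s ^ 2) / 2) = (t - s) ^ 2 * (t + 2 * s) / (2 * s ^ 3 * t) := by
    field_simp
    ring
  have hpos : 0 ≤ (t - s) ^ 2 * (t + 2 * s) / (2 * s ^ 3 * t) := by positivity
  linarith

/-- Quadratic lower bound for the energy around a critical triple. -/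
lemma energy_ge (g0 b : F) (x y z x' y' : F)
    (hxy : x - y ≠ 0) (hxz : x - z ≠ 0) (hyz : y - z ≠ 0)
    (hxy' : x' - y' ≠ 0) (hxz' : x' - z ≠ 0) (hyz' : y' - z ≠ 0)
    (e1 : hforce (x - y) + hforce (x - z) = (4 : ℝ) • x)
    (e2 : hforce (y - x) + hforce (y - z) = (4 : ℝ) • (y - b) - g0)
    (m1 : (‖x - y‖ ^ 3)⁻¹ ≤ 11 / 10) (m2 : (‖x - z‖ ^ 3)⁻¹ ≤ 11 / 10)
    (m3 : (‖y - z‖ ^ 3)⁻¹ ≤ 11 / 10) :
    ‖x - y‖⁻¹ + ‖x - z‖⁻¹ + ‖y - z‖⁻¹ + 2 * ‖x‖ ^ 2 - ⟪g0, y - b⟫ + 2 * ‖y - b‖ ^ 2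
      + (‖x' - x‖ ^ 2 + ‖y' - y‖ ^ 2) * (7 / 20)
      ≤ ‖x' - y'‖⁻¹ + ‖x' - z‖⁻¹ + ‖y' - z‖⁻¹ + 2 * ‖x'‖ ^ 2 - ⟪g0, y' - b⟫
        + 2 * ‖y' - b‖ ^ 2 := by
  have a1 := inv_norm_ge (x - y) (x' - y') hxy hxy'
  have a2 := inv_norm_ge (x - z) (x' - z) hxz hxz'
  have a3 := inv_norm_ge (y - z) (y' - z) hyz hyz'
  have d1 : (x' - y') - (x - y) = (x' - x) - (y' - y) := by abel
  have d2 : (x' - z) - (x - z) = x' - x := by abel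
  have d3 : (y' - z) - (y - z) = y' - y := by abel
  rw [d1] at a1
  rw [d2] at a2
  rw [d3] at a3
  have n1 : ‖x'‖ ^ 2 = ‖x‖ ^ 2 + 2 * ⟪x, x' - x⟫ + ‖x' - x‖ ^ 2 := by
    have h := norm_add_sq_real x (x' - x)
    rwa [add_sub_cancel] at h
  have n2 : ‖y' - b‖ ^ 2 = ‖y - b‖ ^ 2 + 2 * ⟪y - b, y' - y⟫ + ‖y' - y‖ ^ 2 := by
    have h := norm_add_sq_real (y - b) (y' - y)
    have h2 : y - b + (y' - y) = y' - b := by abel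
    rwa [h2] at h
  have n3 : ⟪g0, y' - b⟫ = ⟪g0, y - b⟫ + ⟪g0, y' - y⟫ := by
    rw [← inner_add_right]
    congr 1
    abel
  have hodd : hforce (y - x) = - hforce (x - y) := by
    unfold hforce
    rw [norm_sub_rev, ← smul_neg]
    congr 1
    abel
  have i1 : ⟪hforce (x - y), x' - x⟫ + ⟪hforce (x - z), x' - x⟫ = 4 * ⟪x, x' - x⟫ := by
    rw [← inner_add_left, e1, real_inner_smul_left]
  have i2 : - ⟪hforce (x - y), y' - y⟫ + ⟪hforce (y - z), y' - y⟫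
      = 4 * ⟪y - b, y' - y⟫ - ⟪g0, y' - y⟫ := by
    rw [← inner_neg_left, ← hodd, ← inner_add_left, e2, inner_sub_left, real_inner_smul_left]
  have i3 : ⟪hforce (x - y), (x' - x) - (y' - y)⟫
      = ⟪hforce (x - y), x' - x⟫ - ⟪hforce (x - y), y' - y⟫ := inner_sub_right _ _ _
  have q1 : ‖(x' - x) - (y' - y)‖ ^ 2 ≤ 2 * (‖x' - x‖ ^ 2 + ‖y' - y‖ ^ 2) := by
    have h := parallelogram_law_with_norm ℝ (x' - x) (y' - y)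
    have h0 : 0 ≤ ‖(x' - x) + (y' - y)‖ * ‖(x' - x) + (y' - y)‖ := mul_self_nonneg _
    nlinarith
  have p1 : (‖x - y‖ ^ 3)⁻¹ * ‖(x' - x) - (y' - y)‖ ^ 2
      ≤ 11 / 10 * (2 * (‖x' - x‖ ^ 2 + ‖y' - y‖ ^ 2)) := by
    apply mul_le_mul m1 q1 (by positivity) (by norm_num)
  have p2 : (‖x - z‖ ^ 3)⁻¹ * ‖x' - x‖ ^ 2 ≤ 11 / 10 * ‖x' - x‖ ^ 2 := by
    apply mul_le_mul_of_nonneg_right m2 (by positivity)
  have p3 : (‖y - z‖ ^ 3)⁻¹ * ‖y' - y‖ ^ 2 ≤ 11 / 10 * ‖y' - y‖ ^ 2 := by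
    apply mul_le_mul_of_nonneg_right m3 (by positivity)
  rw [n1, n2, n3]
  nlinarith [a1, a2, a3, i1, i2, i3, p1, p2, p3]

end Ineq

end Vale.Agent.P121
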