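import Mathlib
import Vale.Agent.P121.Ineq

open scoped RealInnerProductSpace NNReal ENNReal Topology
open MeasureTheory Filter Set

namespace Vale.Agent.P121

section Good

variable {F : Type*} [NormedAddCommGroup F] [InnerProductSpace ℝ F] [FiniteDimensional ℝ F]
  [MeasurableSpace F] [BorelSpace F]

lemma good_nhds {f : F → F} {f' : F →L[ℝ] F} (a : F) (hf : HasStrictFDerivAt f f' a)
    (hinj : Function.Injective f') :
    ∃ s ∈ 𝓝 a, ContinuousOn f s ∧ InjOn f s ∧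
      ∃ m : ℝ≥0, 0 < m ∧ ∀ t ⊆ s, (m : ℝ≥0∞) * volume t ≤ volume (f '' t) := by
  let A : F ≃L[ℝ] F :=
    (LinearEquiv.ofInjectiveEndo (f' : F →ₗ[ℝ] F) hinj).toContinuousLinearEquiv
  have hA : (A : F →L[ℝ] F) = f' := by
    ext v
    simp [A]
  have hdet : (f'.det) ≠ 0 := by
    rw [← hA]
    have h := A.toLinearEquiv.isUnit_det'
    exact h.ne_zero
  have hpos : 0 < |f'.det| := abs_pos.mpr hdet
  let m : ℝ≥0 := ⟨|f'.det| / 2, by positivity⟩
  have hm0 : 0 < m := by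
    apply NNReal.coe_pos.mp
    show 0 < |f'.det| / 2
    positivity
  have hm : (m : ℝ≥0∞) < ENNReal.ofReal |f'.det| := by
    rw [← ENNReal.ofReal_coe_nnreal]
    apply (ENNReal.ofReal_lt_ofReal_iff hpos).mpr
    show |f'.det| / 2 < |f'.det|
    linarith
  have h1 := mul_le_addHaar_image_of_lt_det (μ := (volume : Measure F)) f' hm
  have h2 : ∀ᶠ δ in 𝓝[>] (0 : ℝ≥0), Subsingleton F ∨ δ < ‖(A.symm : F →L[ℝ] F)‖₊⁻¹ := by
    rcases A.subsingleton_or_nnnorm_symm_pos with h | h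
    · exact Eventually.of_forall fun _ => Or.inl h
    · apply nhdsWithin_le_nhds
      filter_upwards [Iio_mem_nhds (inv_pos.mpr h)] with δ hδ
      exact Or.inr hδ
  obtain ⟨δ, ⟨hδ1, hδ2⟩, hδ0⟩ := ((h1.and h2).and self_mem_nhdsWithin).exists
  obtain ⟨s, hs, hap⟩ := hf.approximates_deriv_on_nhds (c := δ) (Or.inr hδ0)
  refine ⟨s, hs, hap.continuousOn, ?_, m, hm0, ?_⟩
  · have hap' : ApproximatesLinearOn f (A : F →L[ℝ] F) s δ := by rw [hA]; exact hap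
    exact hap'.injOn hδ2
  · intro t ht
    exact hδ1 t f (hap.mono_set ht)

end Good

section Force

variable {F : Type*} [NormedAddCommGroup F] [InnerProductSpace ℝ F]

/-- The derivative of the force field at `w`. -/
noncomputable def dforce (w : F) : F →L[ℝ] F :=
  (‖w‖ ^ 3)⁻¹ • ContinuousLinearMap.id ℝ F
    - (3 * (‖w‖ ^ 5)⁻¹) • (innerSL ℝ w).smulRight w

lemma dforce_apply (w v : F) :
    dforce w v = (‖w‖ ^ 3)⁻¹ • v - (3 * (‖w‖ ^ 5)⁻¹ * ⟪w, v⟫) • w := by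
  simp [dforce, smul_smul]

lemma hforce_eq_rpow (w : F) : hforce w = ((‖w‖ ^ 2) ^ (-(3 / 2) : ℝ)) • w := by
  unfold hforce
  congr 1
  rw [← Real.rpow_natCast ‖w‖ 2, ← Real.rpow_mul (norm_nonneg w), ← Real.rpow_natCast ‖w‖ 3,
    ← Real.rpow_neg (norm_nonneg w)]
  norm_num

lemma hasStrictFDerivAt_hforce (w : F) (hw : w ≠ 0) :
    HasStrictFDerivAt hforce (dforce w) w := by
  have hpos : 0 < ‖w‖ := norm_pos_iff.mpr hw
  have h0 : ‖w‖ ^ 2 ≠ 0 := by positivity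
  have h1 := (hasStrictFDerivAt_norm_sq w).rpow_const (p := -(3 / 2)) (Or.inl h0)
  have hid : HasStrictFDerivAt (fun x : F => x) (ContinuousLinearMap.id ℝ F) w :=
    hasStrictFDerivAt_id w
  have h2 := HasStrictFDerivAt.fun_smul (𝕜 := ℝ) (𝕜' := ℝ) (F := F) h1 hid
  have h3 : (fun w : F => ((‖w‖ ^ 2) ^ (-(3 / 2) : ℝ)) • w) = hforce := by
    funext w
    rw [hforce_eq_rpow]
  rw [h3] at h2
  have e1 : (‖w‖ ^ 2) ^ (-(3 / 2) : ℝ) = (‖w‖ ^ 3)⁻¹ := by
    rw [← Real.rpow_natCast ‖w‖ 2, ← Real.rpow_mul (norm_nonneg w), ← Real.rpow_natCast ‖w‖ 3,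
      ← Real.rpow_neg (norm_nonneg w)]
    norm_num
  have e2 : (‖w‖ ^ 2) ^ (-(3 / 2) - 1 : ℝ) = (‖w‖ ^ 5)⁻¹ := by
    rw [← Real.rpow_natCast ‖w‖ 2, ← Real.rpow_mul (norm_nonneg w), ← Real.rpow_natCast ‖w‖ 5,
      ← Real.rpow_neg (norm_nonneg w)]
    norm_num
  have h5 : dforce w = (‖w‖ ^ 2) ^ (-(3 / 2) : ℝ) • ContinuousLinearMap.id ℝ F +
      ContinuousLinearMap.smulRight
        ((-(3 / 2) * (‖w‖ ^ 2) ^ (-(3 / 2) - 1 : ℝ)) • 2 • (innerSL ℝ) w) w := by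
    ext1 v
    rw [dforce_apply]
    simp only [add_apply, smul_apply,
      ContinuousLinearMap.smulRight_apply, innerSL_apply_apply, ContinuousLinearMap.id_apply,
      e1, e2, smul_eq_mul]
    rw [sub_eq_add_neg, ← neg_smul]
    congr 2
    rw [two_smul]
    ring
  rw [h5]
  exact h2

end Force

end Vale.Agent.P121
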