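import Mathlib
import Vale.Agent.P121.Implicit

open scoped RealInnerProductSpace NNReal ENNReal Topology
open MeasureTheory Filter Set

namespace Vale.Agent.P121

section Linear

variable {F : Type*} [NormedAddCommGroup F] [InnerProductSpace ℝ F]

lemma dforce_e (e : F) (he : ‖e‖ = 1) (v : F) : dforce e v = v - (3 * ⟪e, v⟫) • e := by
  rw [dforce_apply, he]
  norm_num

lemma dforce_neg_e (e : F) (he : ‖e‖ = 1) (v : F) : dforce (-e) v = v - (3 * ⟪e, v⟫) • e := by
  rw [dforce_apply, norm_neg, he, inner_neg_left]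
  norm_num

lemma dforce_two_e (e : F) (he : ‖e‖ = 1) (v : F) :
    dforce ((2 : ℝ) • e) v = (1 / 8 : ℝ) • (v - (3 * ⟪e, v⟫) • e) := by
  have h2 : ‖(2 : ℝ) • e‖ = 2 := by
    rw [norm_smul, he]; norm_num
  rw [dforce_apply, h2, real_inner_smul_left, smul_sub, smul_smul, smul_smul]
  congr 1
  · norm_num
  · congr 1
    ring

lemma ker_one (e : F) (he : ‖e‖ = 1) (v w : F)
    (h1 : ((0 - v) - (3 * ⟪e, 0 - v⟫) • e) + ((0 - w) - (3 * ⟪e, 0 - w⟫) • e) - (4 : ℝ) • (0 : F) = 0)
    (h2 : ((v - 0) - (3 * ⟪e, v - 0⟫) • e) + (1 / 8 : ℝ) • ((v - w) - (3 * ⟪e, v - w⟫) • e)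
      - (4 : ℝ) • v = 0) : v = 0 ∧ w = 0 := by
  have hee : ⟪e, e⟫ = 1 := by rw [real_inner_self_eq_norm_sq, he]; norm_num
  have i1 := congrArg (fun x => ⟪e, x⟫) h1
  have i2 := congrArg (fun x => ⟪e, x⟫) h2
  simp only [inner_sub_right, inner_add_right, real_inner_smul_right, inner_zero_right, hee] at i1 i2
  have a0 : ⟪e, v⟫ = 0 := by linarith
  have c0 : ⟪e, w⟫ = 0 := by linarith
  simp only [inner_sub_right, inner_zero_right, a0, c0, sub_zero, mul_zero, zero_smul, smul_zero]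
    at h1 h2
  have hv : v = 0 := by
    have h3 : (4 - 1 - 1 / 8 - 1 / 8 : ℝ) • v = 0 := by
      linear_combination (norm := module) (-1 : ℝ) • h2 + (1 / 8 : ℝ) • h1
    have h4 : (4 - 1 - 1 / 8 - 1 / 8 : ℝ) ≠ 0 := by norm_num
    exact (smul_eq_zero.mp h3).resolve_left h4
  refine ⟨hv, ?_⟩
  rw [hv] at h1
  have : -w = 0 := by
    linear_combination (norm := module) h1
  exact neg_eq_zero.mp this

lemma ker_two (e : F) (he : ‖e‖ = 1) (u w : F)
    (h1 : ((u - 0) - (3 * ⟪e, u - 0⟫) • e) + ((u - w) - (3 * ⟪e, u - w⟫) • e) - (4 : ℝ) • u = 0)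
    (h2 : ((0 - u) - (3 * ⟪e, 0 - u⟫) • e) + (1 / 8 : ℝ) • ((0 - w) - (3 * ⟪e, 0 - w⟫) • e)
      - (4 : ℝ) • (0 : F) = 0) : u = 0 := by
  have hee : ⟪e, e⟫ = 1 := by rw [real_inner_self_eq_norm_sq, he]; norm_num
  have i1 := congrArg (fun x => ⟪e, x⟫) h1
  have i2 := congrArg (fun x => ⟪e, x⟫) h2
  simp only [inner_sub_right, inner_add_right, real_inner_smul_right, inner_zero_right, hee] at i1 i2
  have a0 : ⟪e, u⟫ = 0 := by linarith
  have c0 : ⟪e, w⟫ = 0 := by linarith
  simp only [inner_sub_right, inner_zero_right, a0, c0, sub_zero, mul_zero, zero_smul, smul_zero]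
    at h1 h2
  have h3 : (3 / 4 : ℝ) • u = 0 := by
    linear_combination (norm := module) (1 / 8 : ℝ) • h1 - h2
  exact (smul_eq_zero.mp h3).resolve_left (by norm_num)

lemma ker_three (e : F) (he : ‖e‖ = 1) (u v : F)
    (h1 : ((u - v) - (3 * ⟪e, u - v⟫) • e) + ((u - 0) - (3 * ⟪e, u - 0⟫) • e) - (4 : ℝ) • u = 0)
    (h2 : ((v - u) - (3 * ⟪e, v - u⟫) • e) + (1 / 8 : ℝ) • ((v - 0) - (3 * ⟪e, v - 0⟫) • e)
      - (4 : ℝ) • v = 0) : u = 0 := by
  have hee : ⟪e, e⟫ = 1 := by rw [real_inner_self_eq_norm_sq, he]; norm_num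
  have i1 := congrArg (fun x => ⟪e, x⟫) h1
  have i2 := congrArg (fun x => ⟪e, x⟫) h2
  simp only [inner_sub_right, inner_add_right, real_inner_smul_right, inner_zero_right, hee] at i1 i2
  have a0 : ⟪e, u⟫ = 0 := by linarith
  have c0 : ⟪e, v⟫ = 0 := by linarith
  simp only [inner_sub_right, a0, c0, sub_zero, mul_zero, zero_smul] at h1 h2
  have h3 : (19 / 4 : ℝ) • u = 0 := by
    linear_combination (norm := module) (-(23 / 8) : ℝ) • h1 + h2
  exact (smul_eq_zero.mp h3).resolve_left (by norm_num)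

end Linear

section Theta

variable {F : Type*} [NormedAddCommGroup F] [InnerProductSpace ℝ F]

/-- The critical point equations. -/
noncomputable def Theta (e : F) (p : F × F × F) : F × F × F :=
  (p.1, hforce (p.1 - p.2.1) + hforce (p.1 - p.2.2) - (4 : ℝ) • p.1,
    hforce (p.2.1 - p.1) + hforce (p.2.1 - p.2.2) - (4 : ℝ) • (p.2.1 - e) - (5 / 4 : ℝ) • e)

/-- Coordinate projections as continuous linear maps. -/
noncomputable def cX : F × F × F →L[ℝ] F := ContinuousLinearMap.fst ℝ F (F × F)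
/-- Second coordinate. -/
noncomputable def cY : F × F × F →L[ℝ] F :=
  (ContinuousLinearMap.fst ℝ F F).comp (ContinuousLinearMap.snd ℝ F (F × F))
/-- Third coordinate. -/
noncomputable def cZ : F × F × F →L[ℝ] F :=
  (ContinuousLinearMap.snd ℝ F F).comp (ContinuousLinearMap.snd ℝ F (F × F))

/-- The derivative of `Theta` at the base configuration. -/
noncomputable def dTheta (e : F) : F × F × F →L[ℝ] F × F × F :=
  (cX).prod
    ((((dforce (-e)).comp (cX - cY) + (dforce e).comp (cX - cZ) - (4 : ℝ) • cX)).prod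
      ((dforce e).comp (cY - cX) + (dforce ((2 : ℝ) • e)).comp (cY - cZ) - (4 : ℝ) • cY))

lemma hasStrictFDerivAt_Theta (e : F) (he : ‖e‖ = 1) :
    HasStrictFDerivAt (Theta e) (dTheta e) (0, e, -e) := by
  have hX : HasStrictFDerivAt (fun p : F × F × F => p.1) cX (0, e, -e) :=
    (cX (F := F)).hasStrictFDerivAt
  have hY : HasStrictFDerivAt (fun p : F × F × F => p.2.1) cY (0, e, -e) :=
    (cY (F := F)).hasStrictFDerivAt
  have hZ : HasStrictFDerivAt (fun p : F × F × F => p.2.2) cZ (0, e, -e) :=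
    (cZ (F := F)).hasStrictFDerivAt
  have hne : e ≠ 0 := by
    intro h
    rw [h, norm_zero] at he
    exact zero_ne_one he
  have f1 : HasStrictFDerivAt (fun p : F × F × F => hforce (p.1 - p.2.1))
      ((dforce (-e)).comp (cX - cY)) (0, e, -e) := by
    have h := hasStrictFDerivAt_hforce (-e) (neg_ne_zero.mpr hne)
    have h2 : HasStrictFDerivAt (fun p : F × F × F => p.1 - p.2.1) (cX - cY) (0, e, -e) :=
      hX.sub hY
    have h3 : ((fun p : F × F × F => p.1 - p.2.1) (0, e, -e)) = -e := by simp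
    rw [← h3] at h
    have h4 := h.comp (0, e, -e) h2
    rw [h3] at h4
    exact h4
  have f2 : HasStrictFDerivAt (fun p : F × F × F => hforce (p.1 - p.2.2))
      ((dforce e).comp (cX - cZ)) (0, e, -e) := by
    have h := hasStrictFDerivAt_hforce e hne
    have h2 : HasStrictFDerivAt (fun p : F × F × F => p.1 - p.2.2) (cX - cZ) (0, e, -e) :=
      hX.sub hZ
    have h3 : ((fun p : F × F × F => p.1 - p.2.2) (0, e, -e)) = e := by simp
    have h4 : HasStrictFDerivAt (hforce (F := F)) (dforce e)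
      ((fun p : F × F × F => p.1 - p.2.2) (0, e, -e)) := by rw [h3]; exact h
    exact h4.comp (0, e, -e) h2
  have f3 : HasStrictFDerivAt (fun p : F × F × F => hforce (p.2.1 - p.1))
      ((dforce e).comp (cY - cX)) (0, e, -e) := by
    have h := hasStrictFDerivAt_hforce e hne
    have h2 : HasStrictFDerivAt (fun p : F × F × F => p.2.1 - p.1) (cY - cX) (0, e, -e) :=
      hY.sub hX
    have h3 : ((fun p : F × F × F => p.2.1 - p.1) (0, e, -e)) = e := by simp
    have h4 : HasStrictFDerivAt (hforce (F := F)) (dforce e)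
      ((fun p : F × F × F => p.2.1 - p.1) (0, e, -e)) := by rw [h3]; exact h
    exact h4.comp (0, e, -e) h2
  have f4 : HasStrictFDerivAt (fun p : F × F × F => hforce (p.2.1 - p.2.2))
      ((dforce ((2 : ℝ) • e)).comp (cY - cZ)) (0, e, -e) := by
    have hne2 : (2 : ℝ) • e ≠ 0 := smul_ne_zero (by norm_num) hne
    have h := hasStrictFDerivAt_hforce ((2 : ℝ) • e) hne2
    have h2 : HasStrictFDerivAt (fun p : F × F × F => p.2.1 - p.2.2) (cY - cZ) (0, e, -e) :=
      hY.sub hZ
    have h3 : ((fun p : F × F × F => p.2.1 - p.2.2) (0, e, -e)) = (2 : ℝ) • e := by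
      simp [two_smul]
    have h4 : HasStrictFDerivAt (hforce (F := F)) (dforce ((2 : ℝ) • e))
      ((fun p : F × F × F => p.2.1 - p.2.2) (0, e, -e)) := by rw [h3]; exact h
    exact h4.comp (0, e, -e) h2
  have g1 : HasStrictFDerivAt (fun p : F × F × F => (4 : ℝ) • p.1) ((4 : ℝ) • cX) (0, e, -e) :=
    hX.const_smul (4 : ℝ)
  have g2 : HasStrictFDerivAt (fun p : F × F × F => (4 : ℝ) • (p.2.1 - e)) ((4 : ℝ) • cY)
      (0, e, -e) := (hY.sub_const e).const_smul (4 : ℝ)
  exact hX.prodMk (((f1.add f2).sub g1).prodMk ((((f3.add f4).sub g2)).sub_const _))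

lemma Theta_base (e : F) (he : ‖e‖ = 1) : Theta e (0, e, -e) = (0, 0, 0) := by
  unfold Theta
  have h1 : hforce (0 - e) = -e := by
    unfold hforce; rw [zero_sub, norm_neg, he]; simp
  have h2 : hforce (0 - -e) = e := by
    unfold hforce; rw [zero_sub, neg_neg, he]; simp
  have h3 : hforce e = e := by
    unfold hforce; rw [he]; simp
  have h4 : hforce (e - -e) = (1 / 4 : ℝ) • e := by
    have : e - -e = (2 : ℝ) • e := by rw [two_smul]; abel
    unfold hforce; rw [this, norm_smul, he, smul_smul]; norm_num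
  simp only [h1, h2, h3, h4, sub_self, smul_zero, sub_zero]
  refine Prod.ext rfl (Prod.ext ?_ ?_)
  · simp
  · show e + (1 / 4 : ℝ) • e - (5 / 4 : ℝ) • e = 0
    module

lemma dTheta_apply (e : F) (he : ‖e‖ = 1) (u v w : F) :
    dTheta e (u, v, w) = (u,
      ((u - v) - (3 * ⟪e, u - v⟫) • e) + ((u - w) - (3 * ⟪e, u - w⟫) • e) - (4 : ℝ) • u,
      ((v - u) - (3 * ⟪e, v - u⟫) • e) + (1 / 8 : ℝ) • ((v - w) - (3 * ⟪e, v - w⟫) • e)
        - (4 : ℝ) • v) := by
  have h1 := dforce_neg_e e he (u - v)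
  have h2 := dforce_e e he (u - w)
  have h3 := dforce_e e he (v - u)
  have h4 := dforce_two_e e he (v - w)
  rw [← h1, ← h2, ← h3, ← h4]
  rfl

end Theta

section Exists

variable {F : Type*} [NormedAddCommGroup F] [InnerProductSpace ℝ F] [FiniteDimensional ℝ F]
  [MeasurableSpace F] [BorelSpace F]

lemma exists_limb_nhds (e : F) (he : ‖e‖ = 1) (ε : ℝ) (hε : 0 < ε) :
    ∃ f g : F → F, ∃ s ∈ 𝓝 (0 : F), ContinuousOn f s ∧ ContinuousOn g s ∧ InjOn f s ∧ InjOn g s ∧
      (∃ m : ℝ≥0, 0 < m ∧ ∀ t ⊆ s, (m : ℝ≥0∞) * volume t ≤ volume (f '' t)) ∧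
      (∃ m : ℝ≥0, 0 < m ∧ ∀ t ⊆ s, (m : ℝ≥0∞) * volume t ≤ volume (g '' t)) ∧
      ∀ x ∈ s, ‖f x - e‖ ≤ ε ∧ ‖g x + e‖ ≤ ε ∧
        hforce (x - f x) + hforce (x - g x) = (4 : ℝ) • x ∧
        hforce (f x - x) + hforce (f x - g x) = (4 : ℝ) • (f x - e) + (5 / 4 : ℝ) • e := by
  have hinj : Function.Injective (dTheta e) := by
    rw [injective_iff_map_eq_zero]
    rintro ⟨u, v, w⟩ h
    rw [dTheta_apply e he] at h
    have hu : u = 0 := congrArg (fun p : F × F × F => p.1) h
    subst hu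
    have h1 := congrArg (fun p : F × F × F => p.2.1) h
    have h2 := congrArg (fun p : F × F × F => p.2.2) h
    obtain ⟨hv, hw⟩ := ker_one e he v w h1 h2
    rw [hv, hw]
    rfl
  let T : (F × F × F) ≃L[ℝ] (F × F × F) :=
    (LinearEquiv.ofInjectiveEndo (dTheta e : (F × F × F) →ₗ[ℝ] (F × F × F))
      hinj).toContinuousLinearEquiv
  have hT : (T : (F × F × F) →L[ℝ] (F × F × F)) = dTheta e := by
    apply ContinuousLinearMap.ext
    intro v
    rfl
  have hstrict : HasStrictFDerivAt (Theta e) (T : (F × F × F) →L[ℝ] (F × F × F)) (0, e, -e) := by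
    rw [hT]
    exact hasStrictFDerivAt_Theta e he
  set L := hstrict.localInverse (Theta e) T (0, e, -e) with hL
  have hLd : HasStrictFDerivAt L (T.symm : (F × F × F) →L[ℝ] (F × F × F)) (0, 0, 0) := by
    have h := hstrict.to_localInverse
    rw [Theta_base e he] at h
    exact h
  have hL0 : L (0, 0, 0) = (0, e, -e) := by
    have h := hstrict.localInverse_apply_image
    rw [Theta_base e he] at h
    exact h
  have hLr : ∀ᶠ p in 𝓝 ((0, 0, 0) : F × F × F), Theta e (L p) = p := by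
    have h := hstrict.eventually_right_inverse
    rw [Theta_base e he] at h
    exact h
  let ι : F →L[ℝ] F × F × F := ContinuousLinearMap.inl ℝ F (F × F)
  have hι : ∀ x, ι x = (x, 0, 0) := fun x => rfl
  have hLι : HasStrictFDerivAt (fun x => L (ι x)) ((T.symm : (F × F × F) →L[ℝ] (F × F × F)).comp ι)
      0 := by
    have h1 : HasStrictFDerivAt L (T.symm : (F × F × F) →L[ℝ] (F × F × F)) (ι 0) := by
      rw [hι]; exact hLd
    exact h1.comp 0 ι.hasStrictFDerivAt
  have hTs : ∀ v : F, dTheta e (T.symm (ι v)) = ι v := by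
    intro v
    rw [← hT]
    exact T.apply_symm_apply (ι v)
  let f : F → F := fun x => cY (L (ι x))
  let g : F → F := fun x => cZ (L (ι x))
  have hf : HasStrictFDerivAt f
      ((cY (F := F)).comp ((T.symm : (F × F × F) →L[ℝ] (F × F × F)).comp ι)) 0 :=
    (cY (F := F)).hasStrictFDerivAt.comp 0 hLι
  have hg : HasStrictFDerivAt g
      ((cZ (F := F)).comp ((T.symm : (F × F × F) →L[ℝ] (F × F × F)).comp ι)) 0 :=
    (cZ (F := F)).hasStrictFDerivAt.comp 0 hLι
  have hfi : Function.Injective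
      ((cY (F := F)).comp ((T.symm : (F × F × F) →L[ℝ] (F × F × F)).comp ι)) := by
    rw [injective_iff_map_eq_zero]
    intro v hv
    have h := hTs v
    rcases hw : T.symm (ι v) with ⟨u', v', w'⟩
    have hv' : v' = 0 := by
      have : cY (T.symm (ι v)) = 0 := hv
      rw [hw] at this
      exact this
    rw [hw, hv', dTheta_apply e he, hι] at h
    have hu : u' = v := congrArg (fun p : F × F × F => p.1) h
    have h1 := congrArg (fun p : F × F × F => p.2.1) h
    have h2 := congrArg (fun p : F × F × F => p.2.2) h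
    rw [← hu]
    exact ker_two e he u' w' h1 h2
  have hgi : Function.Injective
      ((cZ (F := F)).comp ((T.symm : (F × F × F) →L[ℝ] (F × F × F)).comp ι)) := by
    rw [injective_iff_map_eq_zero]
    intro v hv
    have h := hTs v
    rcases hw : T.symm (ι v) with ⟨u', v', w'⟩
    have hv' : w' = 0 := by
      have : cZ (T.symm (ι v)) = 0 := hv
      rw [hw] at this
      exact this
    rw [hw, hv', dTheta_apply e he, hι] at h
    have hu : u' = v := congrArg (fun p : F × F × F => p.1) h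
    have h1 := congrArg (fun p : F × F × F => p.2.1) h
    have h2 := congrArg (fun p : F × F × F => p.2.2) h
    rw [← hu]
    exact ker_three e he u' v' h1 h2
  obtain ⟨s1, hs1, c1, j1, m1⟩ := good_nhds 0 hf hfi
  obtain ⟨s2, hs2, c2, j2, m2⟩ := good_nhds 0 hg hgi
  have hf0 : f 0 = e := by
    show cY (L (ι 0)) = e
    rw [hι, hL0]; rfl
  have hg0 : g 0 = -e := by
    show cZ (L (ι 0)) = -e
    rw [hι, hL0]; rfl
  have hcf : ∀ᶠ x in 𝓝 (0 : F), ‖f x - e‖ ≤ ε := by
    have h := hf.continuousAt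
    rw [Metric.continuousAt_iff'] at h
    filter_upwards [h ε hε] with x hx
    rw [hf0, dist_eq_norm] at hx
    exact hx.le
  have hcg : ∀ᶠ x in 𝓝 (0 : F), ‖g x + e‖ ≤ ε := by
    have h := hg.continuousAt
    rw [Metric.continuousAt_iff'] at h
    filter_upwards [h ε hε] with x hx
    rw [hg0, dist_eq_norm, sub_neg_eq_add] at hx
    exact hx.le
  have hLr' : ∀ᶠ x in 𝓝 (0 : F), Theta e (L (ι x)) = ι x := by
    have hc : Tendsto ι (𝓝 0) (𝓝 ((0, 0, 0) : F × F × F)) := by
      have := ι.continuous.tendsto 0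
      rw [hι] at this
      exact this
    exact hc.eventually hLr
  obtain ⟨s3, hs3, h3⟩ := (hcf.and (hcg.and hLr')).exists_mem
  refine ⟨f, g, s1 ∩ (s2 ∩ s3), inter_mem hs1 (inter_mem hs2 hs3), c1.mono inter_subset_left,
    c2.mono (inter_subset_right.trans inter_subset_left), j1.mono inter_subset_left,
    j2.mono (inter_subset_right.trans inter_subset_left), ?_, ?_, ?_⟩
  · obtain ⟨m, hm, h⟩ := m1
    exact ⟨m, hm, fun t ht => h t (ht.trans inter_subset_left)⟩
  · obtain ⟨m, hm, h⟩ := m2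
    exact ⟨m, hm, fun t ht => h t (ht.trans (inter_subset_right.trans inter_subset_left))⟩
  · rintro x ⟨-, -, hx⟩
    obtain ⟨k1, k2, k3⟩ := h3 x hx
    refine ⟨k1, k2, ?_⟩
    have q0 : (L (ι x)).1 = x := congrArg (fun p : F × F × F => p.1) k3
    have q1 : hforce ((L (ι x)).1 - f x) + hforce ((L (ι x)).1 - g x) - (4 : ℝ) • (L (ι x)).1 = 0 :=
      congrArg (fun p : F × F × F => p.2.1) k3
    have q2 : hforce (f x - (L (ι x)).1) + hforce (f x - g x) - (4 : ℝ) • (f x - e)
        - (5 / 4 : ℝ) • e = 0 :=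
      congrArg (fun p : F × F × F => p.2.2) k3
    rw [q0] at q1 q2
    constructor
    · exact sub_eq_zero.mp q1
    · rw [sub_sub] at q2
      exact sub_eq_zero.mp q2

end Exists

end Vale.Agent.P121
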