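import Mathlib
import Vale.Agent.P121.Limb

open scoped RealInnerProductSpace NNReal ENNReal Topology
open MeasureTheory Filter Set Metric

namespace Vale.Agent.P121

/-- Two limbs of critical triples over the same small ball around the origin. -/
structure Config (F : Type*) [NormedAddCommGroup F] [InnerProductSpace ℝ F]
    [MeasurableSpace F] [BorelSpace F] [FiniteDimensional ℝ F] where
  e : Bool → F
  f : Bool → F → F
  g : Bool → F → F
  η : ℝ
  η_pos : 0 < η
  η_le : η ≤ 1 / 1000
  norm_e : ∀ i, ‖e i‖ = 1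
  orth : ⟪e false, e true⟫ = 0
  measf : ∀ i, Measurable (f i)
  measg : ∀ i, Measurable (g i)
  contf : ∀ i, ContinuousOn (f i) (closedBall 0 η)
  contg : ∀ i, ContinuousOn (g i) (closedBall 0 η)
  injf : ∀ i, InjOn (f i) (closedBall 0 η)
  injg : ∀ i, InjOn (g i) (closedBall 0 η)
  volf : ∀ i, ∃ m : ℝ≥0, 0 < m ∧ ∀ t ⊆ closedBall 0 η,
    (m : ℝ≥0∞) * volume t ≤ volume (f i '' t)
  volg : ∀ i, ∃ m : ℝ≥0, 0 < m ∧ ∀ t ⊆ closedBall 0 η,
    (m : ℝ≥0∞) * volume t ≤ volume (g i '' t)
  nearf : ∀ i, ∀ x ∈ closedBall (0 : F) η, ‖f i x - e i‖ ≤ 1 / 1000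
  nearg : ∀ i, ∀ x ∈ closedBall (0 : F) η, ‖g i x + e i‖ ≤ 1 / 1000
  eq1 : ∀ i, ∀ x ∈ closedBall (0 : F) η,
    hforce (x - f i x) + hforce (x - g i x) = (4 : ℝ) • x
  eq2 : ∀ i, ∀ x ∈ closedBall (0 : F) η,
    hforce (f i x - x) + hforce (f i x - g i x) = (4 : ℝ) • (f i x - e i) + (5 / 4 : ℝ) • e i

variable {F : Type*} [NormedAddCommGroup F] [InnerProductSpace ℝ F]
    [MeasurableSpace F] [BorelSpace F] [FiniteDimensional ℝ F]

lemma exists_config (e : Bool → F) (he : ∀ i, ‖e i‖ = 1) (ho : ⟪e false, e true⟫ = 0) :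
    Nonempty (Config F) := by
  classical
  have H := fun i => exists_limb_nhds (e i) (he i) (1 / 1000) (by norm_num)
  choose f g s hs cf cg jf jg mf mg hx using H
  have hall : s false ∩ s true ∈ 𝓝 (0 : F) := inter_mem (hs false) (hs true)
  obtain ⟨r, hr, hsub⟩ := Metric.nhds_basis_closedBall.mem_iff.mp hall
  set η : ℝ := min r (1 / 1000) with hη
  have hηpos : 0 < η := lt_min hr (by norm_num)
  have hηsub : ∀ i, closedBall (0 : F) η ⊆ s i := by
    intro i
    have h1 : closedBall (0 : F) η ⊆ s false ∩ s true :=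
      (closedBall_subset_closedBall (min_le_left _ _)).trans hsub
    cases i
    · exact h1.trans inter_subset_left
    · exact h1.trans inter_subset_right
  have hA : MeasurableSet (closedBall (0 : F) η) := measurableSet_closedBall
  let f' : Bool → F → F := fun i => (closedBall (0 : F) η).piecewise (f i) (fun _ => 0)
  let g' : Bool → F → F := fun i => (closedBall (0 : F) η).piecewise (g i) (fun _ => 0)
  have hf' : ∀ i, ∀ x ∈ closedBall (0 : F) η, f' i x = f i x := by
    intro i x hx
    exact piecewise_eq_of_mem _ _ _ hx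
  have hg' : ∀ i, ∀ x ∈ closedBall (0 : F) η, g' i x = g i x := by
    intro i x hx
    exact piecewise_eq_of_mem _ _ _ hx
  refine ⟨{ e := e, f := f', g := g', η := η, η_pos := hηpos, η_le := min_le_right _ _,
            norm_e := he, orth := ho,
            measf := ?_, measg := ?_, contf := ?_, contg := ?_, injf := ?_, injg := ?_,
            volf := ?_, volg := ?_, nearf := ?_, nearg := ?_, eq1 := ?_, eq2 := ?_ }⟩
  · intro i
    exact ContinuousOn.measurable_piecewise ((cf i).mono (hηsub i)) continuousOn_const hA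
  · intro i
    exact ContinuousOn.measurable_piecewise ((cg i).mono (hηsub i)) continuousOn_const hA
  · intro i
    exact ((cf i).mono (hηsub i)).congr (hf' i)
  · intro i
    exact ((cg i).mono (hηsub i)).congr (hg' i)
  · intro i
    exact ((jf i).mono (hηsub i)).congr (fun x hx => (hf' i x hx).symm)
  · intro i
    exact ((jg i).mono (hηsub i)).congr (fun x hx => (hg' i x hx).symm)
  · intro i
    obtain ⟨m, hm, h⟩ := mf i
    refine ⟨m, hm, fun t ht => ?_⟩
    have : f' i '' t = f i '' t := image_congr (fun x hx => hf' i x (ht hx))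
    rw [this]
    exact h t (ht.trans (hηsub i))
  · intro i
    obtain ⟨m, hm, h⟩ := mg i
    refine ⟨m, hm, fun t ht => ?_⟩
    have : g' i '' t = g i '' t := image_congr (fun x hx => hg' i x (ht hx))
    rw [this]
    exact h t (ht.trans (hηsub i))
  · intro i x hxx
    rw [hf' i x hxx]
    exact (hx i x (hηsub i hxx)).1
  · intro i x hxx
    rw [hg' i x hxx]
    exact (hx i x (hηsub i hxx)).2.1
  · intro i x hxx
    rw [hf' i x hxx, hg' i x hxx]
    exact (hx i x (hηsub i hxx)).2.2.1
  · intro i x hxx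
    rw [hf' i x hxx, hg' i x hxx]
    exact (hx i x (hηsub i hxx)).2.2.2

end Vale.Agent.P121
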