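import Mathlib
import Vale.Agent.P121.Config

open scoped RealInnerProductSpace NNReal ENNReal Topology
open MeasureTheory Filter Set Metric

namespace Vale.Agent.P121

section Basic

variable {F : Type*} [NormedAddCommGroup F] [InnerProductSpace ℝ F]

/-- Real-valued three particle energy. -/
noncomputable def V3 (x y z : F) : ℝ := ‖x - y‖⁻¹ + ‖x - z‖⁻¹ + ‖y - z‖⁻¹

lemma V3_swap12 (x y z : F) : V3 x y z = V3 y x z := by
  unfold V3
  rw [norm_sub_rev x y]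
  ring

lemma V3_swap23 (x y z : F) : V3 x y z = V3 x z y := by
  unfold V3
  rw [norm_sub_rev y z]
  ring

lemma near_dist (p q a b : F) (hp : ‖p - a‖ ≤ 1 / 1000) (hq : ‖q - b‖ ≤ 1 / 1000) :
    ‖a - b‖ - 2 / 1000 ≤ ‖p - q‖ ∧ ‖p - q‖ ≤ ‖a - b‖ + 2 / 1000 := by
  have h1 : ‖a - b‖ ≤ ‖p - q‖ + ‖p - a‖ + ‖q - b‖ := by
    have : a - b = (p - q) - (p - a) + (q - b) := by abel
    rw [this]
    calc ‖(p - q) - (p - a) + (q - b)‖ ≤ ‖(p - q) - (p - a)‖ + ‖q - b‖ := norm_add_le _ _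
      _ ≤ ‖p - q‖ + ‖p - a‖ + ‖q - b‖ := by
        have := norm_sub_le (p - q) (p - a)
        linarith
  have h2 : ‖p - q‖ ≤ ‖a - b‖ + ‖p - a‖ + ‖q - b‖ := by
    have : p - q = (a - b) + (p - a) - (q - b) := by abel
    rw [this]
    calc ‖(a - b) + (p - a) - (q - b)‖ ≤ ‖(a - b) + (p - a)‖ + ‖q - b‖ := norm_sub_le _ _
      _ ≤ ‖a - b‖ + ‖p - a‖ + ‖q - b‖ := by
        have := norm_add_le (a - b) (p - a)
        linarith
  constructor <;> linarith

lemma inv_norm_ge' {v : F} {b c : ℝ} (hv : v ≠ 0) (h2 : ‖v‖ ≤ b) (hc : 0 < c) (hbc : b * c ≤ 1) :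
    c ≤ ‖v‖⁻¹ := by
  have h0 : 0 < ‖v‖ := norm_pos_iff.mpr hv
  rw [le_inv_comm₀ hc h0, ← one_div, le_div_iff₀ hc]
  calc ‖v‖ * c ≤ b * c := by gcongr
    _ ≤ 1 := hbc

lemma inv_norm_le' {v : F} {a c : ℝ} (ha : 0 < a) (h1 : a ≤ ‖v‖) (hac : 1 ≤ a * c) :
    ‖v‖⁻¹ ≤ c := by
  have h0 : 0 < ‖v‖ := lt_of_lt_of_le ha h1
  have hc : 0 < c := by
    by_contra h
    push Not at h
    nlinarith
  rw [inv_le_comm₀ h0 hc, ← one_div, div_le_iff₀ hc]
  calc (1 : ℝ) ≤ a * c := hac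
    _ ≤ ‖v‖ * c := by gcongr

/-- Potential on the central ball. -/
noncomputable def uA (x : F) : ℝ := 2 - 2 * ‖x‖ ^ 2

end Basic

variable {F : Type*} [NormedAddCommGroup F] [InnerProductSpace ℝ F]
    [MeasurableSpace F] [BorelSpace F] [FiniteDimensional ℝ F]

namespace Config

variable (K : Config F)

/-- The central ball. -/
def A : Set F := closedBall 0 K.η

/-- Potential near `e i`. -/
noncomputable def uB (i : Bool) (y : F) : ℝ :=
  1 / 4 - (5 / 4) * ⟪K.e i, y - K.e i⟫ - 2 * ‖y - K.e i‖ ^ 2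

/-- Value of the third potential at `g i x`. -/
noncomputable def vC (i : Bool) (x : F) : ℝ :=
  V3 x (K.f i x) (K.g i x) - uA x - K.uB i (K.f i x)

/-- Centres of the four outer pieces. -/
def c : Bool × Bool → F
  | (i, true) => K.e i
  | (i, false) => - K.e i

/-- The four outer limb maps. -/
def h : Bool × Bool → F → F
  | (i, true) => K.f i
  | (i, false) => K.g i

/-- Potential along the outer limb maps. -/
noncomputable def v : Bool × Bool → F → ℝ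
  | (i, true) => fun x => K.uB i (K.f i x)
  | (i, false) => fun x => K.vC i x

lemma near_h (k : Bool × Bool) (x : F) (hx : x ∈ K.A) : ‖K.h k x - K.c k‖ ≤ 1 / 1000 := by
  obtain ⟨i, σ⟩ := k
  cases σ
  · show ‖K.g i x - - K.e i‖ ≤ _
    rw [sub_neg_eq_add]
    exact K.nearg i x hx
  · exact K.nearf i x hx

lemma near_A (x : F) (hx : x ∈ K.A) : ‖x - 0‖ ≤ 1 / 1000 := by
  have : ‖x‖ ≤ K.η := mem_closedBall_zero_iff.mp hx
  rw [sub_zero]
  exact this.trans K.η_le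

lemma norm_c (k : Bool × Bool) : ‖K.c k‖ = 1 := by
  obtain ⟨i, σ⟩ := k
  cases σ
  · show ‖- K.e i‖ = 1
    rw [norm_neg, K.norm_e]
  · exact K.norm_e i

lemma c_opp (k : Bool × Bool) : K.c (k.1, !k.2) = - K.c k := by
  obtain ⟨i, σ⟩ := k
  cases σ
  · show K.e i = - - K.e i
    rw [neg_neg]
  · rfl

lemma inner_e_ne (i j : Bool) (hij : i ≠ j) : ⟪K.e i, K.e j⟫ = 0 := by
  have h1 := K.orth
  have h2 : ⟪K.e true, K.e false⟫ = 0 := by rw [real_inner_comm]; exact h1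
  cases i <;> cases j <;> simp_all

lemma c_dist (k l : Bool × Bool) (hkl : k.1 ≠ l.1) :
    1 ≤ ‖K.c k - K.c l‖ ∧ ‖K.c k - K.c l‖ ≤ 1415 / 1000 := by
  have hin : ⟪K.c k, K.c l⟫ = 0 := by
    obtain ⟨i, σ⟩ := k
    obtain ⟨j, τ⟩ := l
    have h := K.inner_e_ne i j hkl
    cases σ <;> cases τ
    · show ⟪- K.e i, - K.e j⟫ = 0
      rw [inner_neg_left, inner_neg_right, h]; simp
    · show ⟪- K.e i, K.e j⟫ = 0
      rw [inner_neg_left, h]; simp
    · show ⟪K.e i, - K.e j⟫ = 0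
      rw [inner_neg_right, h]; simp
    · exact h
  have hsq : ‖K.c k - K.c l‖ ^ 2 = 2 := by
    rw [norm_sub_sq_real, hin, K.norm_c, K.norm_c]; norm_num
  have h0 := norm_nonneg (K.c k - K.c l)
  constructor
  · nlinarith
  · by_contra hcon
    push Not at hcon
    nlinarith

lemma c_dist_le (k l : Bool × Bool) : ‖K.c k - K.c l‖ ≤ 2 := by
  calc ‖K.c k - K.c l‖ ≤ ‖K.c k‖ + ‖K.c l‖ := norm_sub_le _ _
    _ = 2 := by rw [K.norm_c, K.norm_c]; norm_num

lemma c_dist_opp (k : Bool × Bool) : ‖K.c k - K.c (k.1, !k.2)‖ = 2 := by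
  rw [K.c_opp, sub_neg_eq_add, ← two_smul ℝ, norm_smul, K.norm_c]
  norm_num

lemma c_dist_ge (k l : Bool × Bool) (hkl : k ≠ l) : 1 ≤ ‖K.c k - K.c l‖ := by
  by_cases h : k.1 = l.1
  · have hl : l = (k.1, !k.2) := by
      obtain ⟨i, σ⟩ := k
      obtain ⟨j, τ⟩ := l
      simp only at h
      subst h
      cases σ <;> cases τ <;> simp_all
    rw [hl, K.c_dist_opp]
    norm_num
  · exact (K.c_dist k l h).1

/-- Distances from the central ball to the outer pieces. -/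
lemma dist_A_h (k : Bool × Bool) (x y : F) (hx : x ∈ K.A) (hy : y ∈ K.A) :
    998 / 1000 ≤ ‖x - K.h k y‖ ∧ ‖x - K.h k y‖ ≤ 1002 / 1000 := by
  have h := near_dist x (K.h k y) 0 (K.c k) (K.near_A x hx) (K.near_h k y hy)
  rw [zero_sub, norm_neg, K.norm_c] at h
  constructor <;> linarith [h.1, h.2]

lemma dist_h_opp (i : Bool) (x y : F) (hx : x ∈ K.A) (hy : y ∈ K.A) :
    1998 / 1000 ≤ ‖K.f i x - K.g i y‖ ∧ ‖K.f i x - K.g i y‖ ≤ 2002 / 1000 := by
  have h := near_dist (K.f i x) (K.g i y) (K.c (i, true)) (K.c (i, false))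
    (K.near_h (i, true) x hx) (K.near_h (i, false) y hy)
  have h2 : ‖K.c (i, true) - K.c (i, false)‖ = 2 := K.c_dist_opp (i, true)
  rw [h2] at h
  constructor <;> linarith [h.1, h.2]

lemma uB_bounds (i : Bool) (x : F) (hx : x ∈ K.A) :
    248 / 1000 ≤ K.uB i (K.f i x) ∧ K.uB i (K.f i x) ≤ 252 / 1000 := by
  have h1 := K.nearf i x hx
  have h2 : |⟪K.e i, K.f i x - K.e i⟫| ≤ 1 / 1000 := by
    calc |⟪K.e i, K.f i x - K.e i⟫| ≤ ‖K.e i‖ * ‖K.f i x - K.e i‖ := abs_real_inner_le_norm _ _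
      _ ≤ 1 / 1000 := by rw [K.norm_e, one_mul]; exact h1
  rw [abs_le] at h2
  have h3 : ‖K.f i x - K.e i‖ ^ 2 ≤ (1 / 1000) ^ 2 := by
    gcongr
  have h4 : 0 ≤ ‖K.f i x - K.e i‖ ^ 2 := by positivity
  unfold uB
  constructor <;> nlinarith [h2.1, h2.2]

lemma uA_bounds (x : F) (hx : x ∈ K.A) : 1999 / 1000 ≤ uA x ∧ uA x ≤ 2 := by
  have h1 := K.near_A x hx
  rw [sub_zero] at h1
  have h3 : ‖x‖ ^ 2 ≤ (1 / 1000) ^ 2 := by
    gcongr
  have h4 : 0 ≤ ‖x‖ ^ 2 := by positivity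
  unfold uA
  constructor <;> nlinarith

lemma ne_zero_of_norm_ge {a : ℝ} (ha : 0 < a) {w : F} (hw : a ≤ ‖w‖) : w ≠ 0 := by
  intro h0
  rw [h0, norm_zero] at hw
  linarith

lemma vC_bounds (i : Bool) (x : F) (hx : x ∈ K.A) :
    2 / 10 ≤ K.vC i x ∧ K.vC i x ≤ 3 / 10 := by
  obtain ⟨a1, a2⟩ := K.dist_A_h (i, true) x x hx hx
  obtain ⟨b1, b2⟩ := K.dist_A_h (i, false) x x hx hx
  obtain ⟨d1, d2⟩ := K.dist_h_opp i x x hx hx
  obtain ⟨e1, e2⟩ := K.uB_bounds i x hx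
  obtain ⟨g1, g2⟩ := K.uA_bounds x hx
  change 998 / 1000 ≤ ‖x - K.f i x‖ at a1
  change ‖x - K.f i x‖ ≤ 1002 / 1000 at a2
  change 998 / 1000 ≤ ‖x - K.g i x‖ at b1
  change ‖x - K.g i x‖ ≤ 1002 / 1000 at b2
  have p1 : 998 / 1000 ≤ ‖x - K.f i x‖⁻¹ :=
    inv_norm_ge' (ne_zero_of_norm_ge (by norm_num) a1) a2 (by norm_num) (by norm_num)
  have p2 : 998 / 1000 ≤ ‖x - K.g i x‖⁻¹ :=
    inv_norm_ge' (ne_zero_of_norm_ge (by norm_num) b1) b2 (by norm_num) (by norm_num)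
  have p3 : 499 / 1000 ≤ ‖K.f i x - K.g i x‖⁻¹ :=
    inv_norm_ge' (ne_zero_of_norm_ge (by norm_num) d1) d2 (by norm_num) (by norm_num)
  have q1 : ‖x - K.f i x‖⁻¹ ≤ 1003 / 1000 := inv_norm_le' (by norm_num) a1 (by norm_num)
  have q2 : ‖x - K.g i x‖⁻¹ ≤ 1003 / 1000 := inv_norm_le' (by norm_num) b1 (by norm_num)
  have q3 : ‖K.f i x - K.g i x‖⁻¹ ≤ 501 / 1000 := inv_norm_le' (by norm_num) d1 (by norm_num)
  unfold vC V3
  constructor <;> linarith

lemma v_bounds (k : Bool × Bool) (x : F) (hx : x ∈ K.A) :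
    0 ≤ K.v k x ∧ K.v k x ≤ 3 / 10 := by
  obtain ⟨i, σ⟩ := k
  cases σ
  · have h := K.vC_bounds i x hx
    change 0 ≤ K.vC i x ∧ K.vC i x ≤ 3 / 10
    exact ⟨by linarith [h.1], h.2⟩
  · have h := K.uB_bounds i x hx
    change 0 ≤ K.uB i (K.f i x) ∧ K.uB i (K.f i x) ≤ 3 / 10
    exact ⟨by linarith [h.1], by linarith [h.2]⟩

/-- The limb inequality. -/
lemma limb_ineq (i : Bool) (s x' y' : F) (hs : s ∈ K.A) (h1 : x' ≠ y') (h2 : x' ≠ K.g i s)
    (h3 : y' ≠ K.g i s) :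
    uA x' + K.uB i y' + K.vC i s + (‖x' - s‖ ^ 2 + ‖y' - K.f i s‖ ^ 2) * (7 / 20)
      ≤ V3 x' y' (K.g i s) := by
  obtain ⟨a1, -⟩ := K.dist_A_h (i, true) s s hs hs
  obtain ⟨b1, -⟩ := K.dist_A_h (i, false) s s hs hs
  obtain ⟨d1, -⟩ := K.dist_h_opp i s s hs hs
  change 998 / 1000 ≤ ‖s - K.f i s‖ at a1
  change 998 / 1000 ≤ ‖s - K.g i s‖ at b1
  have m : ∀ w : F, 998 / 1000 ≤ ‖w‖ → (‖w‖ ^ 3)⁻¹ ≤ 11 / 10 := by
    intro w hw
    have hc : (998 / 1000 : ℝ) ^ 3 ≤ ‖w‖ ^ 3 := by gcongr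
    have hc' : (10 / 11 : ℝ) ≤ ‖w‖ ^ 3 := le_trans (by norm_num) hc
    calc (‖w‖ ^ 3)⁻¹ ≤ (10 / 11 : ℝ)⁻¹ := by
          apply inv_anti₀ (by norm_num) hc'
      _ = 11 / 10 := by norm_num
  have E2 : hforce (K.f i s - s) + hforce (K.f i s - K.g i s)
      = (4 : ℝ) • (K.f i s - K.e i) - (-(5 / 4 : ℝ) • K.e i) := by
    rw [neg_smul, sub_neg_eq_add]
    exact K.eq2 i s hs
  have key := energy_ge (-(5 / 4 : ℝ) • K.e i) (K.e i) s (K.f i s) (K.g i s) x' y'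
    (ne_zero_of_norm_ge (by norm_num) a1) (ne_zero_of_norm_ge (by norm_num) b1)
    (ne_zero_of_norm_ge (by norm_num) d1) (sub_ne_zero.mpr h1) (sub_ne_zero.mpr h2)
    (sub_ne_zero.mpr h3) (K.eq1 i s hs) E2 (m _ a1) (m _ b1) (m _ (by linarith))
  rw [real_inner_smul_left, real_inner_smul_left] at key
  unfold vC uB uA V3
  linarith

/-- The support set. -/
def S : Set F := K.A ∪ ⋃ k : Bool × Bool, K.h k '' K.A

/-- A function is a potential if it has the prescribed values on the support. -/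
def IsPot (U : F → ℝ) : Prop :=
  (∀ x ∈ K.A, U x = uA x) ∧ ∀ k, ∀ x ∈ K.A, U (K.h k x) = K.v k x

/-- The triple is, as a set, a limb triple. -/
def IsLimb (p q r : F) : Prop :=
  ∃ i : Bool, ∃ s ∈ K.A, ({p, q, r} : Set F) = {s, K.f i s, K.g i s}

lemma mem_S {p : F} (hp : p ∈ K.S) : p ∈ K.A ∨ ∃ k, ∃ x ∈ K.A, p = K.h k x := by
  rcases hp with h | h
  · exact Or.inl h
  · rw [mem_iUnion] at h
    obtain ⟨k, x, hx, hxp⟩ := h
    exact Or.inr ⟨k, x, hx, hxp.symm⟩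

lemma pot_bounds {U : F → ℝ} (hU : K.IsPot U) {p : F} (hp : p ∈ K.S) : 0 ≤ U p ∧ U p ≤ 2 := by
  rcases K.mem_S hp with h | ⟨k, x, hx, rfl⟩
  · rw [hU.1 p h]
    have := K.uA_bounds p h
    constructor <;> linarith [this.1, this.2]
  · rw [hU.2 k x hx]
    have := K.v_bounds k x hx
    constructor <;> linarith [this.1, this.2]

lemma pot_bound_h {U : F → ℝ} (hU : K.IsPot U) (k : Bool × Bool) {x : F} (hx : x ∈ K.A) :
    U (K.h k x) ≤ 3 / 10 := by
  rw [hU.2 k x hx]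
  exact (K.v_bounds k x hx).2

lemma inv_pos' {w : F} : 0 ≤ ‖w‖⁻¹ := by positivity

/-- Core case: first point in the central ball. -/
lemma contact_core {U : F → ℝ} (hU : K.IsPot U) {p q r : F} (hp : p ∈ K.A) (hq : q ∈ K.S)
    (hr : r ∈ K.S) (hpq : p ≠ q) (hpr : p ≠ r) (hqr : q ≠ r) :
    U p + U q + U r ≤ V3 p q r ∧ (U p + U q + U r = V3 p q r → K.IsLimb p q r) := by
  have hpS : p ∈ K.S := Or.inl hp
  have bp := K.pot_bounds hU hpS
  have bq := K.pot_bounds hU hq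
  have br := K.pot_bounds hU hr
  have near : ∀ w ∈ K.A, p ≠ w → 500 ≤ ‖p - w‖⁻¹ := by
    intro w hw hne
    have h := near_dist p w 0 0 (K.near_A p hp) (K.near_A w hw)
    rw [sub_self, norm_zero] at h
    exact inv_norm_ge' (sub_ne_zero.mpr hne) h.2 (by norm_num) (by norm_num)
  rcases K.mem_S hq with hqA | ⟨k, x, hx, rfl⟩
  · have h := near q hqA hpq
    have h2 : 0 ≤ ‖p - r‖⁻¹ := inv_pos'
    have h3 : 0 ≤ ‖q - r‖⁻¹ := inv_pos'
    have : U p + U q + U r < V3 p q r := by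
      unfold V3
      linarith [bp.2, bq.2, br.2]
    exact ⟨this.le, fun h => absurd h this.ne⟩
  rcases K.mem_S hr with hrA | ⟨l, y, hy, rfl⟩
  · have h := near r hrA hpr
    have h2 : 0 ≤ ‖p - K.h k x‖⁻¹ := inv_pos'
    have h3 : 0 ≤ ‖K.h k x - r‖⁻¹ := inv_pos'
    have : U p + U (K.h k x) + U r < V3 p (K.h k x) r := by
      unfold V3
      linarith [bp.2, bq.2, br.2]
    exact ⟨this.le, fun h => absurd h this.ne⟩
  have b1 := K.pot_bound_h hU k hx
  have b2 := K.pot_bound_h hU l hy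
  have d1 := K.dist_A_h k p x hp hx
  have d2 := K.dist_A_h l p y hp hy
  have i1 : 998 / 1000 ≤ ‖p - K.h k x‖⁻¹ :=
    inv_norm_ge' (sub_ne_zero.mpr hpq) d1.2 (by norm_num) (by norm_num)
  have i2 : 998 / 1000 ≤ ‖p - K.h l y‖⁻¹ :=
    inv_norm_ge' (sub_ne_zero.mpr hpr) d2.2 (by norm_num) (by norm_num)
  -- the non-antipodal case
  have far : ‖K.c k - K.c l‖ ≤ 1415 / 1000 →
      U p + U (K.h k x) + U (K.h l y) < V3 p (K.h k x) (K.h l y) := by
    intro hc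
    have h := near_dist (K.h k x) (K.h l y) (K.c k) (K.c l) (K.near_h k x hx) (K.near_h l y hy)
    have h3 : 7 / 10 ≤ ‖K.h k x - K.h l y‖⁻¹ :=
      inv_norm_ge' (b := 1417 / 1000) (sub_ne_zero.mpr hqr) (by linarith [h.2]) (by norm_num)
        (by norm_num)
    unfold V3
    linarith [bp.2]
  by_cases hkl : k.1 = l.1
  · by_cases hk2 : k.2 = l.2
    · have : k = l := Prod.ext hkl hk2
      have hlt := far (by rw [this, sub_self, norm_zero]; norm_num)
      exact ⟨hlt.le, fun h => absurd h hlt.ne⟩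
    · obtain ⟨i, σ⟩ := k
      obtain ⟨j, τ⟩ := l
      simp only at hkl hk2
      subst hkl
      cases σ <;> cases τ
      · exact absurd rfl hk2
      · -- q = g i x, r = f i y
        have hU1 : U (K.h (i, false) x) = K.vC i x := hU.2 (i, false) x hx
        have hU2 : U (K.h (i, true) y) = K.uB i (K.f i y) := hU.2 (i, true) y hy
        have hL := K.limb_ineq i x p (K.f i y) hx hpr hpq hqr.symm
        rw [hU.1 p hp, hU1, hU2]
        have hV : V3 p (K.h (i, false) x) (K.h (i, true) y) = V3 p (K.f i y) (K.g i x) :=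
          V3_swap23 _ _ _
        rw [hV]
        have s1 : 0 ≤ ‖p - x‖ ^ 2 := by positivity
        have s2 : 0 ≤ ‖K.f i y - K.f i x‖ ^ 2 := by positivity
        refine ⟨by linarith, fun heq => ?_⟩
        have z1 : ‖p - x‖ ^ 2 = 0 := by linarith
        have z2 : ‖K.f i y - K.f i x‖ ^ 2 = 0 := by linarith
        have e1 : p = x := by
          rw [sq_eq_zero_iff, norm_eq_zero, sub_eq_zero] at z1; exact z1
        have e2 : K.f i y = K.f i x := by
          rw [sq_eq_zero_iff, norm_eq_zero, sub_eq_zero] at z2; exact z2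
        refine ⟨i, x, hx, ?_⟩
        show ({p, K.g i x, K.f i y} : Set F) = _
        rw [e1, e2, Set.pair_comm (K.g i x)]
      · have hU1 : U (K.h (i, true) x) = K.uB i (K.f i x) := hU.2 (i, true) x hx
        have hU2 : U (K.h (i, false) y) = K.vC i y := hU.2 (i, false) y hy
        have hL := K.limb_ineq i y p (K.f i x) hy hpq hpr hqr
        rw [hU.1 p hp, hU1, hU2]
        change uA p + K.uB i (K.f i x) + K.vC i y ≤ V3 p (K.f i x) (K.g i y) ∧ _
        have s1 : 0 ≤ ‖p - y‖ ^ 2 := by positivity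
        have s2 : 0 ≤ ‖K.f i x - K.f i y‖ ^ 2 := by positivity
        refine ⟨by linarith, fun heq => ?_⟩
        change uA p + K.uB i (K.f i x) + K.vC i y = V3 p (K.f i x) (K.g i y) at heq
        have z1 : ‖p - y‖ ^ 2 = 0 := by linarith
        have z2 : ‖K.f i x - K.f i y‖ ^ 2 = 0 := by linarith
        have e1 : p = y := by
          rw [sq_eq_zero_iff, norm_eq_zero, sub_eq_zero] at z1; exact z1
        have e2 : K.f i x = K.f i y := by
          rw [sq_eq_zero_iff, norm_eq_zero, sub_eq_zero] at z2; exact z2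
        refine ⟨i, y, hy, ?_⟩
        show ({p, K.f i x, K.g i y} : Set F) = _
        rw [e1, e2]
      · exact absurd rfl hk2
  · have hlt := far (K.c_dist k l hkl).2
    exact ⟨hlt.le, fun h => absurd h hlt.ne⟩

/-- All three points outer. -/
lemma contact_outer {U : F → ℝ} (hU : K.IsPot U) (k l m : Bool × Bool) {x y z : F}
    (hx : x ∈ K.A) (hy : y ∈ K.A) (hz : z ∈ K.A) (h12 : K.h k x ≠ K.h l y)
    (h13 : K.h k x ≠ K.h m z) (h23 : K.h l y ≠ K.h m z) :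
    U (K.h k x) + U (K.h l y) + U (K.h m z) < V3 (K.h k x) (K.h l y) (K.h m z) := by
  have b1 := K.pot_bound_h hU k hx
  have b2 := K.pot_bound_h hU l hy
  have b3 := K.pot_bound_h hU m hz
  have D : ∀ (a b : Bool × Bool) (s t : F), s ∈ K.A → t ∈ K.A → K.h a s ≠ K.h b t →
      49 / 100 ≤ ‖K.h a s - K.h b t‖⁻¹ := by
    intro a b s t hs ht hne
    have h := near_dist (K.h a s) (K.h b t) (K.c a) (K.c b) (K.near_h a s hs) (K.near_h b t ht)
    have h2 := K.c_dist_le a b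
    exact inv_norm_ge' (b := 2002 / 1000) (sub_ne_zero.mpr hne) (by linarith [h.2]) (by norm_num)
      (by norm_num)
  have d1 := D k l x y hx hy h12
  have d2 := D k m x z hx hz h13
  have d3 := D l m y z hy hz h23
  unfold V3
  linarith

lemma contact {U : F → ℝ} (hU : K.IsPot U) {p q r : F} (hp : p ∈ K.S) (hq : q ∈ K.S)
    (hr : r ∈ K.S) (hpq : p ≠ q) (hpr : p ≠ r) (hqr : q ≠ r) :
    U p + U q + U r ≤ V3 p q r ∧ (U p + U q + U r = V3 p q r → K.IsLimb p q r) := by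
  rcases K.mem_S hp with hpA | ⟨k, x, hx, hpe⟩
  · exact K.contact_core hU hpA hq hr hpq hpr hqr
  rcases K.mem_S hq with hqA | ⟨l, y, hy, hqe⟩
  · have h := K.contact_core hU hqA hp hr hpq.symm hqr hpr
    rw [V3_swap12 p q r]
    refine ⟨by linarith [h.1], fun heq => ?_⟩
    obtain ⟨i, s, hs, hset⟩ := h.2 (by linarith)
    refine ⟨i, s, hs, ?_⟩
    rw [← hset, Set.insert_comm]
  rcases K.mem_S hr with hrA | ⟨m, z, hz, hre⟩
  · have h := K.contact_core hU hrA hp hq hpr.symm hqr.symm hpq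
    rw [V3_swap23 p q r, V3_swap12 p r q]
    refine ⟨by linarith [h.1], fun heq => ?_⟩
    obtain ⟨i, s, hs, hset⟩ := h.2 (by linarith)
    refine ⟨i, s, hs, ?_⟩
    rw [← hset]
    ext w
    simp only [mem_insert_iff, mem_singleton_iff]
    tauto
  · subst hpe hqe hre
    have h := K.contact_outer hU k l m hx hy hz hpq hpr hqr
    exact ⟨h.le, fun heq => absurd heq h.ne⟩

end Config

end Vale.Agent.P121
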