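import Mathlib

open scoped ENNReal
open MeasureTheory

namespace Vale.Agent.P121

/-- The three-particle Coulomb cost
`1/|x₁ - x₂| + 1/|x₁ - x₃| + 1/|x₂ - x₃|`, with value `∞` when two coordinates coincide
(in `ℝ≥0∞` one has `0⁻¹ = ∞`). -/
noncomputable def coulombCost {X : Type*} [EDist X] (p : X × X × X) : ℝ≥0∞ :=
  (edist p.1 p.2.1)⁻¹ + (edist p.1 p.2.2)⁻¹ + (edist p.2.1 p.2.2)⁻¹

/-- `π` is a probability measure on `X × X × X` whose three coordinate marginals all equal `μ`. -/
structure IsCoupling {X : Type*} [MeasurableSpace X] (μ : Measure X)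
    (π : Measure (X × X × X)) : Prop where
  prob : IsProbabilityMeasure π
  fst : π.map (fun p => p.1) = μ
  snd : π.map (fun p => p.2.1) = μ
  thd : π.map (fun p => p.2.2) = μ

/-- The Kantorovich value: the infimum of the Coulomb cost over all couplings. -/
noncomputable def kantorovichValue {X : Type*} [MeasurableSpace X] [EDist X]
    (μ : Measure X) : ℝ≥0∞ :=
  ⨅ π : {π : Measure (X × X × X) // IsCoupling μ π}, ∫⁻ p, coulombCost p ∂π.1

/-- `μ` admits an optimal Monge plan: Borel maps `T₂, T₃` pushing `μ` to `μ` such that the cost of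
`(Id, T₂, T₃)_# μ` equals the Kantorovich value. -/
def HasOptimalMongePlan {X : Type*} [MeasurableSpace X] [EDist X] (μ : Measure X) : Prop :=
  ∃ T₂ T₃ : X → X, Measurable T₂ ∧ Measurable T₃ ∧ μ.map T₂ = μ ∧ μ.map T₃ = μ ∧
    ∫⁻ x, coulombCost (x, T₂ x, T₃ x) ∂μ = kantorovichValue μ

end Vale.Agent.P121
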