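import Mathlib
import Vale.Agent.P121.Contact

open scoped RealInnerProductSpace NNReal ENNReal Topology
open MeasureTheory Filter Set Metric

namespace Vale.Agent.P121

variable {F : Type*} [NormedAddCommGroup F] [InnerProductSpace ℝ F]
    [MeasurableSpace F] [BorelSpace F] [FiniteDimensional ℝ F]

namespace Config

variable (K : Config F)

lemma measurableSet_A : MeasurableSet K.A := measurableSet_closedBall

lemma isCompact_A : IsCompact K.A := by
  have : ProperSpace F := FiniteDimensional.proper ℝ F
  exact isCompact_closedBall 0 K.η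

lemma meas_h (k : Bool × Bool) : Measurable (K.h k) := by
  obtain ⟨i, σ⟩ := k
  cases σ
  · exact K.measg i
  · exact K.measf i

lemma cont_h (k : Bool × Bool) : ContinuousOn (K.h k) K.A := by
  obtain ⟨i, σ⟩ := k
  cases σ
  · exact K.contg i
  · exact K.contf i

lemma inj_h (k : Bool × Bool) : InjOn (K.h k) K.A := by
  obtain ⟨i, σ⟩ := k
  cases σ
  · exact K.injg i
  · exact K.injf i

lemma vol_h (k : Bool × Bool) : ∃ m : ℝ≥0, 0 < m ∧ ∀ t ⊆ K.A,
    (m : ℝ≥0∞) * volume t ≤ volume (K.h k '' t) := by
  obtain ⟨i, σ⟩ := k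
  cases σ
  · exact K.volg i
  · exact K.volf i

lemma isCompact_image_h (k : Bool × Bool) : IsCompact (K.h k '' K.A) :=
  K.isCompact_A.image_of_continuousOn (K.cont_h k)

lemma measurableSet_image_h (k : Bool × Bool) : MeasurableSet (K.h k '' K.A) :=
  (K.isCompact_image_h k).measurableSet

lemma measurableSet_image_h' (k : Bool × Bool) {t : Set F} (ht : MeasurableSet t) (hA : t ⊆ K.A) :
    MeasurableSet (K.h k '' t) := by
  have : ProperSpace F := FiniteDimensional.proper ℝ F
  exact ht.image_of_continuousOn_injOn ((K.cont_h k).mono hA) ((K.inj_h k).mono hA)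

lemma isCompact_S : IsCompact K.S :=
  K.isCompact_A.union (isCompact_iUnion fun k => K.isCompact_image_h k)

lemma measurableSet_S : MeasurableSet K.S := K.isCompact_S.measurableSet

lemma A_ne_h (k : Bool × Bool) {x y : F} (hx : x ∈ K.A) (hy : y ∈ K.A) : x ≠ K.h k y := by
  intro h
  have h2 := (K.dist_A_h k x y hx hy).1
  rw [← h, sub_self, norm_zero] at h2
  norm_num at h2

lemma notMem_A_h (k : Bool × Bool) {y : F} (hy : y ∈ K.A) : K.h k y ∉ K.A :=
  fun h => K.A_ne_h k h hy rfl

lemma h_ne_h {k l : Bool × Bool} (hkl : k ≠ l) {x y : F} (hx : x ∈ K.A) (hy : y ∈ K.A) :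
    K.h k x ≠ K.h l y := by
  intro h
  have h2 := near_dist (K.h k x) (K.h l y) (K.c k) (K.c l) (K.near_h k x hx) (K.near_h l y hy)
  have h3 := K.c_dist_ge k l hkl
  rw [← h, sub_self, norm_zero] at h2
  linarith [h2.1]

lemma measurable_uB (i : Bool) : Measurable (K.uB i) := by
  unfold uB
  have h1 : Measurable fun y : F => ⟪K.e i, y - K.e i⟫ :=
    (continuous_const.inner (continuous_id.sub continuous_const)).measurable
  have h2 : Measurable fun y : F => ‖y - K.e i‖ ^ 2 :=
    ((continuous_id.sub continuous_const).norm.pow 2).measurable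
  exact (measurable_const.sub (h1.const_mul _)).sub (h2.const_mul _)

lemma measurable_uA : Measurable (uA (F := F)) := by
  unfold uA
  exact measurable_const.sub ((continuous_norm.pow 2).measurable.const_mul _)

lemma measurable_vC (i : Bool) : Measurable (K.vC i) := by
  have hf := K.measf i
  have hg := K.measg i
  unfold vC V3
  have h1 : Measurable fun x : F => ‖x - K.f i x‖⁻¹ := (measurable_id.sub hf).norm.inv
  have h2 : Measurable fun x : F => ‖x - K.g i x‖⁻¹ := (measurable_id.sub hg).norm.inv
  have h3 : Measurable fun x : F => ‖K.f i x - K.g i x‖⁻¹ := (hf.sub hg).norm.inv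
  exact (((h1.add h2).add h3).sub measurable_uA).sub ((K.measurable_uB i).comp hf)

lemma measurable_v (k : Bool × Bool) : Measurable (K.v k) := by
  obtain ⟨i, σ⟩ := k
  cases σ
  · exact K.measurable_vC i
  · exact (K.measurable_uB i).comp (K.measf i)

lemma exists_pot : ∃ U : F → ℝ, Measurable U ∧ K.IsPot U := by
  classical
  have : ProperSpace F := FiniteDimensional.proper ℝ F
  have hw : ∀ k, ∃ w : F → ℝ, Measurable w ∧ ∀ x ∈ K.A, w (K.h k x) = K.v k x := by
    intro k
    have hemb := ContinuousOn.measurableEmbedding K.measurableSet_A (K.cont_h k) (K.inj_h k)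
    obtain ⟨w, hwm, hwe⟩ := hemb.exists_measurable_extend
      (g := fun x : K.A => K.v k x) ((K.measurable_v k).comp measurable_subtype_coe)
      (fun _ => ⟨(0 : ℝ)⟩)
    refine ⟨w, hwm, fun x hx => ?_⟩
    exact congrFun hwe ⟨x, hx⟩
  choose w hwm hwe using hw
  refine ⟨fun z => K.A.indicator uA z + ∑ k, (K.h k '' K.A).indicator (w k) z, ?_, ?_, ?_⟩
  · apply Measurable.add
    · exact measurable_uA.indicator K.measurableSet_A
    · apply Finset.measurable_fun_sum
      intro k _
      exact (hwm k).indicator (K.measurableSet_image_h k)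
  · intro x hx
    have h0 : ∑ k, (K.h k '' K.A).indicator (w k) x = 0 := by
      apply Finset.sum_eq_zero
      intro k _
      apply indicator_of_notMem
      rintro ⟨y, hy, hyx⟩
      exact K.A_ne_h k hx hy hyx.symm
    simp only [h0, add_zero]
    exact indicator_of_mem hx _
  · intro k x hx
    have h1 : K.A.indicator uA (K.h k x) = 0 := indicator_of_notMem (K.notMem_A_h k hx) _
    have h2 : ∑ l, (K.h l '' K.A).indicator (w l) (K.h k x) = w k (K.h k x) := by
      rw [Finset.sum_eq_single k]
      · exact indicator_of_mem (mem_image_of_mem _ hx) _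
      · intro l _ hlk
        apply indicator_of_notMem
        rintro ⟨y, hy, hyx⟩
        exact K.h_ne_h hlk hy hx hyx
      · intro h
        exact absurd (Finset.mem_univ k) h
    simp only [h1, h2, zero_add]
    exact hwe k x hx

end Config

end Vale.Agent.P121
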