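import Mathlib
import Vale.Agent.P121.Pot
import Vale.Agent.P121.Defs

open scoped RealInnerProductSpace NNReal ENNReal Topology
open MeasureTheory Filter Set Metric

namespace Vale.Agent.P121

variable {F : Type*} [NormedAddCommGroup F] [InnerProductSpace ℝ F]
    [MeasurableSpace F] [BorelSpace F] [FiniteDimensional ℝ F]

namespace Config

variable (K : Config F)

/-- Normalized Lebesgue measure on the central ball. -/
noncomputable def lam : Measure F := (volume K.A)⁻¹ • (volume.restrict K.A)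

lemma vol_A_ne_zero : volume K.A ≠ 0 := (measure_closedBall_pos volume 0 K.η_pos).ne'

lemma vol_A_ne_top : volume K.A ≠ ∞ := K.isCompact_A.measure_lt_top.ne

instance : IsProbabilityMeasure K.lam := by
  constructor
  unfold lam
  rw [Measure.smul_apply, Measure.restrict_apply_univ, smul_eq_mul]
  exact ENNReal.inv_mul_cancel K.vol_A_ne_zero K.vol_A_ne_top

lemma lam_apply {t : Set F} (ht : MeasurableSet t) :
    K.lam t = (volume K.A)⁻¹ * volume (t ∩ K.A) := by
  unfold lam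
  rw [Measure.smul_apply, Measure.restrict_apply ht, smul_eq_mul]

lemma ae_lam_mem : ∀ᵐ x ∂K.lam, x ∈ K.A := by
  unfold lam
  apply Measure.ae_smul_measure
  exact ae_restrict_mem K.measurableSet_A

/-- The counterexample measure. -/
noncomputable def mu : Measure F :=
  (6 : ℝ≥0∞)⁻¹ • ((2 : ℝ≥0∞) • K.lam + ∑ k, K.lam.map (K.h k))

lemma lintegral_mu {φ : F → ℝ≥0∞} (hφ : Measurable φ) :
    ∫⁻ x, φ x ∂K.mu = 6⁻¹ * (2 * ∫⁻ x, φ x ∂K.lam + ∑ k, ∫⁻ x, φ (K.h k x) ∂K.lam) := by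
  unfold mu
  rw [lintegral_smul_measure, lintegral_add_measure, lintegral_smul_measure,
    lintegral_finsetSum_measure]
  simp only [smul_eq_mul]
  congr 3
  funext k
  exact lintegral_map hφ (K.meas_h k)

lemma mu_apply {t : Set F} (ht : MeasurableSet t) :
    K.mu t = 6⁻¹ * (2 * K.lam t + ∑ k, K.lam (K.h k ⁻¹' t)) := by
  unfold mu
  rw [Measure.smul_apply, Measure.add_apply, Measure.smul_apply, Measure.finsetSum_apply]
  simp only [smul_eq_mul]
  congr 3
  funext k
  exact Measure.map_apply (K.meas_h k) ht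

instance : IsProbabilityMeasure K.mu := by
  constructor
  rw [K.mu_apply MeasurableSet.univ]
  simp only [preimage_univ, measure_univ, mul_one, Finset.sum_const, Finset.card_univ,
    Fintype.card_prod, Fintype.card_bool, nsmul_eq_mul]
  norm_num
  exact ENNReal.inv_mul_cancel (by norm_num) (by norm_num)

lemma ae_mu_mem : ∀ᵐ x ∂K.mu, x ∈ K.S := by
  rw [ae_iff]
  have hm : MeasurableSet {a | ¬ a ∈ K.S} := K.measurableSet_S.compl
  rw [K.mu_apply hm]
  have h1 : K.lam {a | ¬ a ∈ K.S} = 0 := by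
    rw [← ae_iff]
    filter_upwards [K.ae_lam_mem] with x hx
    exact Or.inl hx
  have h2 : ∀ k, K.lam (K.h k ⁻¹' {a | ¬ a ∈ K.S}) = 0 := by
    intro k
    have : K.h k ⁻¹' {a | ¬ a ∈ K.S} = {a | ¬ K.h k a ∈ K.S} := rfl
    rw [this, ← ae_iff]
    filter_upwards [K.ae_lam_mem] with x hx
    exact Or.inr (mem_iUnion.mpr ⟨k, x, hx, rfl⟩)
  rw [h1, Finset.sum_eq_zero (fun k _ => h2 k)]
  simp

lemma lam_null_of_mu_null {t : Set F} (ht : MeasurableSet t) (h : K.mu t = 0) : K.lam t = 0 := by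
  rw [K.mu_apply ht, mul_eq_zero] at h
  rcases h with h | h
  · exact absurd h (by simp)
  · rw [add_eq_zero, mul_eq_zero] at h
    rcases h.1 with h | h
    · exact absurd h (by norm_num)
    · exact h

lemma lam_ac_mu : K.lam ≪ K.mu :=
  Measure.AbsolutelyContinuous.mk fun _ ht h => K.lam_null_of_mu_null ht h

/-- Bounded density. -/
lemma mu_le : ∃ C : ℝ≥0, K.mu ≤ (C : ℝ≥0∞) • volume := by
  choose m hm hv using K.vol_h
  have hA0 := K.vol_A_ne_zero
  have hA1 := K.vol_A_ne_top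
  have hinv : (volume K.A)⁻¹ ≠ ∞ := ENNReal.inv_ne_top.mpr hA0
  have hk : ∀ k, ∀ t : Set F, MeasurableSet t →
      K.lam (K.h k ⁻¹' t) ≤ ((volume K.A)⁻¹ * (m k : ℝ≥0∞)⁻¹) * volume t := by
    intro k t ht
    rw [K.lam_apply (K.meas_h k ht), mul_assoc]
    gcongr
    have h1 := hv k (K.h k ⁻¹' t ∩ K.A) inter_subset_right
    have h2 : volume (K.h k '' (K.h k ⁻¹' t ∩ K.A)) ≤ volume t := by
      apply measure_mono
      rintro _ ⟨x, hx, rfl⟩
      exact hx.1
    have hm0 : (m k : ℝ≥0∞) ≠ 0 := by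
      exact_mod_cast (hm k).ne'
    calc volume (K.h k ⁻¹' t ∩ K.A)
        = (m k : ℝ≥0∞)⁻¹ * ((m k : ℝ≥0∞) * volume (K.h k ⁻¹' t ∩ K.A)) := by
          rw [← mul_assoc, ENNReal.inv_mul_cancel hm0 ENNReal.coe_ne_top, one_mul]
      _ ≤ (m k : ℝ≥0∞)⁻¹ * volume t := by
          gcongr
          exact h1.trans h2
  have hl : ∀ t : Set F, MeasurableSet t → K.lam t ≤ (volume K.A)⁻¹ * volume t := by
    intro t ht
    rw [K.lam_apply ht]
    gcongr
    exact inter_subset_left
  set C' : ℝ≥0∞ := 6⁻¹ * (2 * (volume K.A)⁻¹ + ∑ k, (volume K.A)⁻¹ * (m k : ℝ≥0∞)⁻¹) with hC'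
  have hC'top : C' ≠ ∞ := by
    rw [hC']
    apply ENNReal.mul_ne_top (by simp)
    apply ENNReal.add_ne_top.mpr
    refine ⟨ENNReal.mul_ne_top (by norm_num) hinv, ?_⟩
    apply ENNReal.sum_ne_top.mpr
    intro k _
    apply ENNReal.mul_ne_top hinv
    apply ENNReal.inv_ne_top.mpr
    exact_mod_cast (hm k).ne'
  refine ⟨C'.toNNReal, ?_⟩
  rw [ENNReal.coe_toNNReal hC'top]
  rw [Measure.le_iff]
  intro t ht
  rw [K.mu_apply ht, Measure.smul_apply, smul_eq_mul, hC', mul_assoc, add_mul, Finset.sum_mul,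
    mul_assoc 2]
  gcongr with k hk'
  · exact hl t ht
  · exact hk k t ht

end Config

end Vale.Agent.P121
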