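import Mathlib
import Vale.Agent.P121.Meas

open scoped RealInnerProductSpace NNReal ENNReal Topology
open MeasureTheory Filter Set Metric

namespace Vale.Agent.P121

variable {F : Type*} [NormedAddCommGroup F] [InnerProductSpace ℝ F]
    [MeasurableSpace F] [BorelSpace F] [FiniteDimensional ℝ F]

section Cost

lemma coulombCost_eq {x y z : F} (hxy : x ≠ y) (hxz : x ≠ z) (hyz : y ≠ z) :
    coulombCost (x, y, z) = ENNReal.ofReal (V3 x y z) := by
  have key : ∀ a b : F, a ≠ b → (edist a b)⁻¹ = ENNReal.ofReal (‖a - b‖⁻¹) := by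
    intro a b hab
    rw [edist_dist, dist_eq_norm]
    have : 0 < ‖a - b‖ := norm_pos_iff.mpr (sub_ne_zero.mpr hab)
    rw [ENNReal.ofReal_inv_of_pos this]
  unfold coulombCost V3
  simp only
  rw [key x y hxy, key x z hxz, key y z hyz, ENNReal.ofReal_add (by positivity) (by positivity),
    ENNReal.ofReal_add (by positivity) (by positivity)]

lemma coulombCost_top {x y z : F} (h : ¬ (x ≠ y ∧ x ≠ z ∧ y ≠ z)) :
    coulombCost (x, y, z) = ∞ := by
  unfold coulombCost
  simp only
  by_cases h1 : x = y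
  · subst h1; simp
  by_cases h2 : x = z
  · subst h2; simp
  by_cases h3 : y = z
  · subst h3; simp
  exact absurd ⟨h1, h2, h3⟩ h

lemma measurable_coulombCost : Measurable (fun p : F × F × F => coulombCost p) := by
  have : SecondCountableTopology F := by
    have : ProperSpace F := FiniteDimensional.proper ℝ F
    infer_instance
  unfold coulombCost
  have h1 : Measurable fun p : F × F × F => edist p.1 p.2.1 :=
    measurable_fst.edist measurable_snd.fst
  have h2 : Measurable fun p : F × F × F => edist p.1 p.2.2 :=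
    measurable_fst.edist measurable_snd.snd
  have h3 : Measurable fun p : F × F × F => edist p.2.1 p.2.2 :=
    measurable_snd.fst.edist measurable_snd.snd
  exact (h1.inv.add h2.inv).add h3.inv

lemma coulombCost_swap12 (x y z : F) : coulombCost (x, y, z) = coulombCost (y, x, z) := by
  unfold coulombCost
  simp only
  rw [edist_comm x y]
  ring

lemma coulombCost_swap23 (x y z : F) : coulombCost (x, y, z) = coulombCost (x, z, y) := by
  unfold coulombCost
  simp only
  rw [edist_comm y z]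
  ring

end Cost

namespace Config

variable (K : Config F)

/-- The cyclically symmetrized limb plan. -/
noncomputable def gam : Measure (F × F × F) :=
  (6 : ℝ≥0∞)⁻¹ • ∑ i, (K.lam.map (fun x => (x, K.f i x, K.g i x))
    + K.lam.map (fun x => (K.f i x, K.g i x, x)) + K.lam.map (fun x => (K.g i x, x, K.f i x)))

lemma meas1 (i : Bool) : Measurable (fun x => (x, K.f i x, K.g i x)) :=
  measurable_id.prodMk ((K.measf i).prodMk (K.measg i))

lemma meas2 (i : Bool) : Measurable (fun x => (K.f i x, K.g i x, x)) :=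
  (K.measf i).prodMk ((K.measg i).prodMk measurable_id)

lemma meas3 (i : Bool) : Measurable (fun x => (K.g i x, x, K.f i x)) :=
  (K.measg i).prodMk (measurable_id.prodMk (K.measf i))

lemma lintegral_gam {φ : F × F × F → ℝ≥0∞} (hφ : Measurable φ) :
    ∫⁻ p, φ p ∂K.gam = 6⁻¹ * ∑ i, (∫⁻ x, φ (x, K.f i x, K.g i x) ∂K.lam
      + ∫⁻ x, φ (K.f i x, K.g i x, x) ∂K.lam + ∫⁻ x, φ (K.g i x, x, K.f i x) ∂K.lam) := by
  unfold gam
  rw [lintegral_smul_measure, lintegral_finsetSum_measure]
  simp only [smul_eq_mul]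
  congr 2
  funext i
  rw [lintegral_add_measure, lintegral_add_measure, lintegral_map hφ (K.meas1 i),
    lintegral_map hφ (K.meas2 i), lintegral_map hφ (K.meas3 i)]

lemma gam_coupling : IsCoupling K.mu K.gam := by
  have hfst : Measurable (fun p : F × F × F => p.1) := measurable_fst
  have hsnd : Measurable (fun p : F × F × F => p.2.1) := measurable_snd.fst
  have hthd : Measurable (fun p : F × F × F => p.2.2) := measurable_snd.snd
  have hL : ∀ (t : Set F), MeasurableSet t → ∀ q : F × F × F → F, Measurable q →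
      (K.gam.map q) t = ∫⁻ p, t.indicator 1 (q p) ∂K.gam := by
    intro t ht q hq
    rw [Measure.map_apply hq ht, ← lintegral_indicator_one (hq ht)]
    rfl
  have hR : ∀ (t : Set F), MeasurableSet t → K.mu t = ∫⁻ p, t.indicator 1 p ∂K.mu := by
    intro t ht
    rw [lintegral_indicator_one ht]
  have hmi : ∀ (t : Set F), MeasurableSet t → Measurable (t.indicator (1 : F → ℝ≥0∞)) := by
    intro t ht
    exact measurable_one.indicator ht
  have fin : ∀ a b c d e' : ℝ≥0∞, (6 : ℝ≥0∞)⁻¹ * ((a + b + c) + (a + d + e'))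
      = 6⁻¹ * (2 * a + ((b + c) + (d + e'))) := by
    intro a b c d e'
    ring
  have H1 : K.gam.map (fun p => p.1) = K.mu := by
    refine Measure.ext fun t ht => ?_
    have e1 := K.lintegral_gam (φ := fun p => t.indicator 1 p.1) ((hmi t ht).comp hfst)
    rw [hL t ht _ hfst, hR t ht, e1, K.lintegral_mu (hmi t ht)]
    simp only [Fintype.sum_prod_type, Fintype.sum_bool, h]
    ring
  have H2 : K.gam.map (fun p => p.2.1) = K.mu := by
    refine Measure.ext fun t ht => ?_
    have e1 := K.lintegral_gam (φ := fun p => t.indicator 1 p.2.1) ((hmi t ht).comp hsnd)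
    rw [hL t ht _ hsnd, hR t ht, e1, K.lintegral_mu (hmi t ht)]
    simp only [Fintype.sum_prod_type, Fintype.sum_bool, h]
    ring
  have H3 : K.gam.map (fun p => p.2.2) = K.mu := by
    refine Measure.ext fun t ht => ?_
    have e1 := K.lintegral_gam (φ := fun p => t.indicator 1 p.2.2) ((hmi t ht).comp hthd)
    rw [hL t ht _ hthd, hR t ht, e1, K.lintegral_mu (hmi t ht)]
    simp only [Fintype.sum_prod_type, Fintype.sum_bool, h]
    ring
  refine ⟨?_, H1, H2, H3⟩
  constructor
  have h1 : K.gam univ = (K.gam.map (fun p => p.1)) univ := by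
    rw [Measure.map_apply hfst MeasurableSet.univ, preimage_univ]
  rw [h1, H1]
  exact measure_univ

/-- Cost of a limb triple. -/
lemma cost_limb {U : F → ℝ} (hU : K.IsPot U) (i : Bool) {x : F} (hx : x ∈ K.A) :
    coulombCost (x, K.f i x, K.g i x)
      = ENNReal.ofReal (U x) + ENNReal.ofReal (U (K.f i x)) + ENNReal.ofReal (U (K.g i x)) := by
  have h1 : x ≠ K.f i x := K.A_ne_h (i, true) hx hx
  have h2 : x ≠ K.g i x := K.A_ne_h (i, false) hx hx
  have h3 : K.f i x ≠ K.g i x := K.h_ne_h (k := (i, true)) (l := (i, false)) (by simp) hx hx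
  rw [coulombCost_eq h1 h2 h3]
  have u1 : U x = uA x := hU.1 x hx
  have u2 : U (K.f i x) = K.uB i (K.f i x) := hU.2 (i, true) x hx
  have u3 : U (K.g i x) = K.vC i x := hU.2 (i, false) x hx
  have b1 := (K.pot_bounds hU (Or.inl hx : x ∈ K.S)).1
  have b2 : 0 ≤ U (K.f i x) :=
    (K.pot_bounds hU (Or.inr (mem_iUnion.mpr ⟨(i, true), x, hx, rfl⟩) : K.f i x ∈ K.S)).1
  have b3 : 0 ≤ U (K.g i x) :=
    (K.pot_bounds hU (Or.inr (mem_iUnion.mpr ⟨(i, false), x, hx, rfl⟩) : K.g i x ∈ K.S)).1
  rw [← ENNReal.ofReal_add b1 b2, ← ENNReal.ofReal_add (by positivity) b3]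
  congr 1
  rw [u1, u2, u3]
  unfold vC
  ring

lemma cost_gam {U : F → ℝ} (hUm : Measurable U) (hU : K.IsPot U) :
    ∫⁻ p, coulombCost p ∂K.gam = 3 * ∫⁻ x, ENNReal.ofReal (U x) ∂K.mu := by
  have hW : Measurable fun x => ENNReal.ofReal (U x) := hUm.ennreal_ofReal
  rw [K.lintegral_gam measurable_coulombCost, K.lintegral_mu hW]
  have h1 : ∀ i, ∫⁻ x, coulombCost (x, K.f i x, K.g i x) ∂K.lam
      = ∫⁻ x, ENNReal.ofReal (U x) ∂K.lam + ∫⁻ x, ENNReal.ofReal (U (K.f i x)) ∂K.lam
        + ∫⁻ x, ENNReal.ofReal (U (K.g i x)) ∂K.lam := by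
    intro i
    have hW2 : Measurable fun x => ENNReal.ofReal (U x) + ENNReal.ofReal (U (K.f i x)) :=
      hW.add (hW.comp (K.measf i))
    rw [← lintegral_add_left hW, ← lintegral_add_left hW2]
    apply lintegral_congr_ae
    filter_upwards [K.ae_lam_mem] with x hx
    exact K.cost_limb hU i hx
  have h2 : ∀ i, ∫⁻ x, coulombCost (K.f i x, K.g i x, x) ∂K.lam
      = ∫⁻ x, coulombCost (x, K.f i x, K.g i x) ∂K.lam := by
    intro i
    congr 1
    funext x
    rw [coulombCost_swap23, coulombCost_swap12]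
  have h3 : ∀ i, ∫⁻ x, coulombCost (K.g i x, x, K.f i x) ∂K.lam
      = ∫⁻ x, coulombCost (x, K.f i x, K.g i x) ∂K.lam := by
    intro i
    congr 1
    funext x
    rw [coulombCost_swap12, coulombCost_swap23]
  simp only [h2, h3, h1, Fintype.sum_prod_type, Fintype.sum_bool, h]
  ring

lemma kant_le {U : F → ℝ} (hUm : Measurable U) (hU : K.IsPot U) :
    kantorovichValue K.mu ≤ 3 * ∫⁻ x, ENNReal.ofReal (U x) ∂K.mu := by
  unfold kantorovichValue
  calc ⨅ π : {π : Measure (F × F × F) // IsCoupling K.mu π}, ∫⁻ p, coulombCost p ∂π.1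
      ≤ ∫⁻ p, coulombCost p ∂K.gam := iInf_le (fun π : {π : Measure (F × F × F) //
          IsCoupling K.mu π} => ∫⁻ p, coulombCost p ∂π.1) ⟨K.gam, K.gam_coupling⟩
    _ = _ := K.cost_gam hUm hU

lemma lint_pot_lt_top {U : F → ℝ} (hU : K.IsPot U) :
    ∫⁻ x, ENNReal.ofReal (U x) ∂K.mu < ∞ := by
  calc ∫⁻ x, ENNReal.ofReal (U x) ∂K.mu ≤ ∫⁻ _, 2 ∂K.mu := by
        apply lintegral_mono_ae
        filter_upwards [K.ae_mu_mem] with x hx
        have h := (K.pot_bounds hU hx).2
        calc ENNReal.ofReal (U x) ≤ ENNReal.ofReal 2 := ENNReal.ofReal_le_ofReal h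
          _ = 2 := by norm_num
    _ = 2 := by simp
    _ < ∞ := by norm_num

end Config

end Vale.Agent.P121
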