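import Mathlib
import Vale.Agent.P121.Upper

open scoped RealInnerProductSpace NNReal ENNReal Topology
open MeasureTheory Filter Set Metric

namespace Vale.Agent.P121

variable {F : Type*} [NormedAddCommGroup F] [InnerProductSpace ℝ F]
    [MeasurableSpace F] [BorelSpace F] [FiniteDimensional ℝ F]

namespace Config

variable (K : Config F)

/-- The six orderings of a limb triple. -/
def IsPerm (p q r : F) : Prop :=
  ∃ i : Bool, ∃ s ∈ K.A,
    (p = s ∧ q = K.f i s ∧ r = K.g i s) ∨ (p = s ∧ q = K.g i s ∧ r = K.f i s) ∨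
    (p = K.f i s ∧ q = s ∧ r = K.g i s) ∨ (p = K.f i s ∧ q = K.g i s ∧ r = s) ∨
    (p = K.g i s ∧ q = s ∧ r = K.f i s) ∨ (p = K.g i s ∧ q = K.f i s ∧ r = s)

lemma isPerm_of_isLimb {p q r : F} (h : K.IsLimb p q r) (h1 : p ≠ q) (h2 : p ≠ r) (h3 : q ≠ r) :
    K.IsPerm p q r := by
  obtain ⟨i, s, hs, hset⟩ := h
  refine ⟨i, s, hs, ?_⟩
  have hp : p ∈ ({s, K.f i s, K.g i s} : Set F) := by rw [← hset]; simp
  have hq : q ∈ ({s, K.f i s, K.g i s} : Set F) := by rw [← hset]; simp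
  have hr : r ∈ ({s, K.f i s, K.g i s} : Set F) := by rw [← hset]; simp
  simp only [mem_insert_iff, mem_singleton_iff] at hp hq hr
  rcases hp with rfl | rfl | rfl <;> rcases hq with rfl | rfl | rfl <;>
    rcases hr with rfl | rfl | rfl <;> simp_all

/-- Almost everywhere structure of an optimal Monge plan. -/
lemma ae_perm {U : F → ℝ} (hUm : Measurable U) (hU : K.IsPot U) {T₂ T₃ : F → F}
    (m2 : Measurable T₂) (m3 : Measurable T₃) (p2 : K.mu.map T₂ = K.mu) (p3 : K.mu.map T₃ = K.mu)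
    (hopt : ∫⁻ x, coulombCost (x, T₂ x, T₃ x) ∂K.mu = kantorovichValue K.mu) :
    ∀ᵐ x ∂K.mu, K.IsPerm x (T₂ x) (T₃ x) := by
  have hS2 : ∀ᵐ x ∂K.mu, T₂ x ∈ K.S := by
    have h := K.ae_mu_mem
    rw [← p2] at h
    exact ae_of_ae_map m2.aemeasurable h
  have hS3 : ∀ᵐ x ∂K.mu, T₃ x ∈ K.S := by
    have h := K.ae_mu_mem
    rw [← p3] at h
    exact ae_of_ae_map m3.aemeasurable h
  set W : F → ℝ≥0∞ := fun x => ENNReal.ofReal (U x) with hWdef
  have hW : Measurable W := hUm.ennreal_ofReal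
  have hsum : ∫⁻ x, (W x + W (T₂ x) + W (T₃ x)) ∂K.mu = 3 * ∫⁻ x, W x ∂K.mu := by
    have e2 : ∫⁻ x, W (T₂ x) ∂K.mu = ∫⁻ x, W x ∂K.mu := by
      rw [← lintegral_map hW m2, p2]
    have e3 : ∫⁻ x, W (T₃ x) ∂K.mu = ∫⁻ x, W x ∂K.mu := by
      rw [← lintegral_map hW m3, p3]
    have hW2 : Measurable fun x => W x + W (T₂ x) := hW.add (hW.comp m2)
    rw [lintegral_add_left hW2, lintegral_add_left hW, e2, e3]
    ring
  have hle : (fun x => W x + W (T₂ x) + W (T₃ x)) ≤ᵐ[K.mu]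
      fun x => coulombCost (x, T₂ x, T₃ x) := by
    filter_upwards [K.ae_mu_mem, hS2, hS3] with x hx h2 h3
    by_cases hd : x ≠ T₂ x ∧ x ≠ T₃ x ∧ T₂ x ≠ T₃ x
    · rw [coulombCost_eq hd.1 hd.2.1 hd.2.2]
      have b1 := (K.pot_bounds hU hx).1
      have b2 := (K.pot_bounds hU h2).1
      rw [hWdef]
      simp only
      rw [← ENNReal.ofReal_add b1 b2, ← ENNReal.ofReal_add (by positivity) (K.pot_bounds hU h3).1]
      exact ENNReal.ofReal_le_ofReal (K.contact hU hx h2 h3 hd.1 hd.2.1 hd.2.2).1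
    · rw [coulombCost_top hd]
      exact le_top
  have hfin : ∫⁻ x, (W x + W (T₂ x) + W (T₃ x)) ∂K.mu ≠ ∞ := by
    rw [hsum]
    exact ENNReal.mul_ne_top (by norm_num) (K.lint_pot_lt_top hU).ne
  have hmc : Measurable fun x => coulombCost (x, T₂ x, T₃ x) :=
    measurable_coulombCost.comp (measurable_id.prodMk (m2.prodMk m3))
  have hge : ∫⁻ x, coulombCost (x, T₂ x, T₃ x) ∂K.mu
      ≤ ∫⁻ x, (W x + W (T₂ x) + W (T₃ x)) ∂K.mu := by
    rw [hopt, hsum]
    exact K.kant_le hUm hU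
  have heq := ae_eq_of_ae_le_of_lintegral_le hle hfin hmc.aemeasurable hge
  filter_upwards [K.ae_mu_mem, hS2, hS3, heq] with x hx h2 h3 he
  by_cases hd : x ≠ T₂ x ∧ x ≠ T₃ x ∧ T₂ x ≠ T₃ x
  · apply K.isPerm_of_isLimb _ hd.1 hd.2.1 hd.2.2
    apply (K.contact hU hx h2 h3 hd.1 hd.2.1 hd.2.2).2
    rw [coulombCost_eq hd.1 hd.2.1 hd.2.2] at he
    have b1 := (K.pot_bounds hU hx).1
    have b2 := (K.pot_bounds hU h2).1
    have b3 := (K.pot_bounds hU h3).1
    rw [hWdef] at he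
    simp only at he
    rw [← ENNReal.ofReal_add b1 b2, ← ENNReal.ofReal_add (by positivity) b3] at he
    have hV : 0 ≤ V3 x (T₂ x) (T₃ x) := by unfold V3; positivity
    exact (ENNReal.ofReal_eq_ofReal_iff (by positivity) hV).mp he
  · rw [coulombCost_top hd] at he
    exact absurd he (by simp [hWdef])

/-- Measure of a subset of the central ball. -/
lemma mu_sub_A {t : Set F} (ht : MeasurableSet t) (hA : t ⊆ K.A) :
    K.mu t = 6⁻¹ * (2 * K.lam t) := by
  rw [K.mu_apply ht]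
  have h0 : ∀ k, K.lam (K.h k ⁻¹' t) = 0 := by
    intro k
    have : K.lam (K.h k ⁻¹' t)ᶜᶜ = 0 := by
      rw [← mem_ae_iff]
      filter_upwards [K.ae_lam_mem] with x hx hxt
      exact K.notMem_A_h k hx (hA hxt)
    rwa [compl_compl] at this
  rw [Finset.sum_eq_zero (fun k _ => h0 k), add_zero]

/-- Measure of an outer piece. -/
lemma mu_image (k : Bool × Bool) {t : Set F} (ht : MeasurableSet t) (hA : t ⊆ K.A) :
    K.mu (K.h k '' t) = 6⁻¹ * K.lam t := by
  rw [K.mu_apply (K.measurableSet_image_h' k ht hA)]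
  have h0 : K.lam (K.h k '' t) = 0 := by
    have : K.lam (K.h k '' t)ᶜᶜ = 0 := by
      rw [← mem_ae_iff]
      filter_upwards [K.ae_lam_mem] with x hx hxt
      obtain ⟨y, hy, rfl⟩ := hxt
      exact K.notMem_A_h k (hA hy) hx
    rwa [compl_compl] at this
  have h1 : ∑ l, K.lam (K.h l ⁻¹' (K.h k '' t)) = K.lam t := by
    rw [Finset.sum_eq_single k]
    · apply measure_congr
      filter_upwards [K.ae_lam_mem] with x hx
      apply propext
      constructor
      · rintro ⟨y, hy, hyx⟩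
        have := K.inj_h k (hA hy) hx hyx
        rw [← this]
        exact hy
      · intro hxt
        exact ⟨x, hxt, rfl⟩
    · intro l _ hlk
      have : K.lam (K.h l ⁻¹' (K.h k '' t))ᶜᶜ = 0 := by
        rw [← mem_ae_iff]
        filter_upwards [K.ae_lam_mem] with x hx hxt
        obtain ⟨y, hy, hyx⟩ := hxt
        exact K.h_ne_h hlk hx (hA hy) hyx.symm
      rwa [compl_compl] at this
    · intro h
      exact absurd (Finset.mem_univ k) h
  rw [h0, h1, mul_zero, zero_add]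

/-- The part of the central ball which uses limb `i`. -/
def alpha (T₂ T₃ : F → F) (i : Bool) : Set F :=
  K.A ∩ (T₂ ⁻¹' (K.g i '' K.A) ∪ T₃ ⁻¹' (K.g i '' K.A))

lemma alpha_null {T₂ T₃ : F → F}
    (m2 : Measurable T₂) (m3 : Measurable T₃) (p2 : K.mu.map T₂ = K.mu) (p3 : K.mu.map T₃ = K.mu)
    (hperm : ∀ᵐ x ∂K.mu, K.IsPerm x (T₂ x) (T₃ x)) (i : Bool) :
    K.lam (K.alpha T₂ T₃ i) = 0 := by
  set α := K.alpha T₂ T₃ i with hα
  have hαA : α ⊆ K.A := inter_subset_left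
  have hgm : MeasurableSet (K.g i '' K.A) := K.measurableSet_image_h (i, false)
  have hαm : MeasurableSet α := K.measurableSet_A.inter ((m2 hgm).union (m3 hgm))
  have hDm : MeasurableSet (K.g i '' α) := K.measurableSet_image_h' (i, false) hαm hαA
  have hBm : MeasurableSet (K.f i '' α) := K.measurableSet_image_h' (i, true) hαm hαA
  -- membership facts
  have Af : ∀ j, ∀ s ∈ K.A, K.f j s ∉ K.A := fun j s hs => K.notMem_A_h (j, true) hs
  have Ag : ∀ j, ∀ s ∈ K.A, K.g j s ∉ K.A := fun j s hs => K.notMem_A_h (j, false) hs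
  have ff : ∀ j, ∀ s ∈ K.A, (K.f j s ∈ K.f i '' α ↔ j = i ∧ s ∈ α) := by
    intro j s hs
    constructor
    · rintro ⟨y, hy, hyx⟩
      by_cases hji : j = i
      · subst hji
        have := K.injf j (hαA hy) hs hyx
        rw [← this]
        exact ⟨rfl, hy⟩
      · exact absurd hyx (K.h_ne_h (k := (i, true)) (l := (j, true))
          (by simp [Ne.symm hji]) (hαA hy) hs)
    · rintro ⟨rfl, hsα⟩
      exact ⟨s, hsα, rfl⟩
  have gg : ∀ j, ∀ s ∈ K.A, (K.g j s ∈ K.g i '' α ↔ j = i ∧ s ∈ α) := by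
    intro j s hs
    constructor
    · rintro ⟨y, hy, hyx⟩
      by_cases hji : j = i
      · subst hji
        have := K.injg j (hαA hy) hs hyx
        rw [← this]
        exact ⟨rfl, hy⟩
      · exact absurd hyx (K.h_ne_h (k := (i, false)) (l := (j, false))
          (by simp [Ne.symm hji]) (hαA hy) hs)
    · rintro ⟨rfl, hsα⟩
      exact ⟨s, hsα, rfl⟩
  have gA : ∀ j, ∀ s ∈ K.A, (K.g j s ∈ K.g i '' K.A ↔ j = i) := by
    intro j s hs
    constructor
    · rintro ⟨y, hy, hyx⟩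
      by_contra hji
      exact absurd hyx (K.h_ne_h (k := (i, false)) (l := (j, false))
          (by simp [Ne.symm hji]) hy hs)
    · rintro rfl
      exact ⟨s, hs, rfl⟩
  have fgA : ∀ j, ∀ s ∈ K.A, K.f j s ∉ K.g i '' K.A := by
    rintro j s hs ⟨y, hy, hyx⟩
    exact absurd hyx (K.h_ne_h (k := (i, false)) (l := (j, true)) (by simp) hy hs)
  have gfA : ∀ j, ∀ s ∈ K.A, K.g j s ∉ K.f i '' α := by
    rintro j s hs ⟨y, hy, hyx⟩
    exact absurd hyx (K.h_ne_h (k := (i, true)) (l := (j, false)) (by simp) (hαA hy) hs)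
  have sg : ∀ s ∈ K.A, s ∉ K.g i '' α := by
    rintro s hs ⟨y, hy, hyx⟩
    exact K.A_ne_h (i, false) hs (hαA hy) hyx.symm
  have sf : ∀ s ∈ K.A, s ∉ K.f i '' α := by
    rintro s hs ⟨y, hy, hyx⟩
    exact K.A_ne_h (i, true) hs (hαA hy) hyx.symm
  have fg : ∀ j, ∀ s ∈ K.A, K.f j s ∉ K.g i '' α := by
    rintro j s hs ⟨y, hy, hyx⟩
    exact fgA j s hs ⟨y, hαA hy, hyx⟩
  have fα : ∀ j, ∀ s ∈ K.A, K.f j s ∉ α := fun j s hs h => Af j s hs (hαA h)
  have gα : ∀ j, ∀ s ∈ K.A, K.g j s ∉ α := fun j s hs h => Ag j s hs (hαA h)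
  have count : ∀ᵐ x ∂K.mu,
      (K.g i '' α).indicator (1 : F → ℝ≥0∞) x + (K.g i '' α).indicator (1 : F → ℝ≥0∞) (T₂ x)
        + (K.g i '' α).indicator (1 : F → ℝ≥0∞) (T₃ x)
      = α.indicator (1 : F → ℝ≥0∞) x + (K.f i '' α).indicator (1 : F → ℝ≥0∞) x
        + (K.g i '' α).indicator (1 : F → ℝ≥0∞) x := by
    filter_upwards [hperm] with x hx
    obtain ⟨j, s, hs, hcase⟩ := hx
    -- if `x = s` then `s ∈ α` forces `j = i`
    have hsα : x = s → (T₂ x = K.f j s ∨ T₂ x = K.g j s) →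
        (T₃ x = K.f j s ∨ T₃ x = K.g j s) → s ∈ α → j = i := by
      intro hxs h2 h3 hmem
      rw [hα] at hmem
      obtain ⟨-, hmem⟩ := hmem
      rw [← hxs] at hmem
      rcases hmem with hm | hm
      · rcases h2 with h2 | h2
        · rw [mem_preimage, h2] at hm
          exact absurd hm (fgA j s hs)
        · rw [mem_preimage, h2] at hm
          exact (gA j s hs).mp hm
      · rcases h3 with h3 | h3
        · rw [mem_preimage, h3] at hm
          exact absurd hm (fgA j s hs)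
        · rw [mem_preimage, h3] at hm
          exact (gA j s hs).mp hm
    have a1 : (K.g i '' α).indicator (1 : F → ℝ≥0∞) s = 0 := indicator_of_notMem (sg s hs) _
    have a2 : (K.g i '' α).indicator (1 : F → ℝ≥0∞) (K.f j s) = 0 :=
      indicator_of_notMem (fg j s hs) _
    have b1 : α.indicator (1 : F → ℝ≥0∞) (K.f j s) = 0 := indicator_of_notMem (fα j s hs) _
    have b2 : α.indicator (1 : F → ℝ≥0∞) (K.g j s) = 0 := indicator_of_notMem (gα j s hs) _
    have c1 : (K.f i '' α).indicator (1 : F → ℝ≥0∞) s = 0 := indicator_of_notMem (sf s hs) _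
    have c3 : (K.f i '' α).indicator (1 : F → ℝ≥0∞) (K.g j s) = 0 :=
      indicator_of_notMem (gfA j s hs) _
    have key : (K.g i '' α).indicator (1 : F → ℝ≥0∞) (K.g j s)
        = (K.f i '' α).indicator (1 : F → ℝ≥0∞) (K.f j s) := by
      by_cases hb : j = i ∧ s ∈ α
      · rw [indicator_of_mem ((gg j s hs).mpr hb), indicator_of_mem ((ff j s hs).mpr hb)]
        rfl
      · rw [indicator_of_notMem (fun h => hb ((gg j s hs).mp h)),
          indicator_of_notMem (fun h => hb ((ff j s hs).mp h))]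
    have key2 : (s ∈ α → j = i) → (K.g i '' α).indicator (1 : F → ℝ≥0∞) (K.g j s)
        = α.indicator (1 : F → ℝ≥0∞) s := by
      intro hh
      by_cases hb : s ∈ α
      · rw [indicator_of_mem ((gg j s hs).mpr ⟨hh hb, hb⟩), indicator_of_mem hb]
        rfl
      · rw [indicator_of_notMem (fun h => hb ((gg j s hs).mp h).2), indicator_of_notMem hb]
    rcases hcase with ⟨h1, h2, h3⟩ | ⟨h1, h2, h3⟩ | ⟨h1, h2, h3⟩ | ⟨h1, h2, h3⟩ | ⟨h1, h2, h3⟩ |
      ⟨h1, h2, h3⟩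
    · have hh := hsα h1 (Or.inl h2) (Or.inr h3)
      rw [h2, h3, h1, a1, a2, c1, key2 hh]
      ring
    · have hh := hsα h1 (Or.inr h2) (Or.inl h3)
      rw [h2, h3, h1, a1, a2, c1, key2 hh]
      ring
    · rw [h2, h3, h1, a1, a2, b1, key]
      ring
    · rw [h2, h3, h1, a1, a2, b1, key]
    · rw [h2, h3, h1, a1, a2, b2, c3]
      ring
    · rw [h2, h3, h1, a1, a2, b2, c3]
      ring
  have hint := lintegral_congr_ae count
  have i1 : Measurable ((K.g i '' α).indicator (1 : F → ℝ≥0∞)) := measurable_one.indicator hDm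
  have i2 : Measurable (fun x => (K.g i '' α).indicator (1 : F → ℝ≥0∞) (T₂ x)) := i1.comp m2
  have i4 : Measurable (α.indicator (1 : F → ℝ≥0∞)) := measurable_one.indicator hαm
  have i5 : Measurable ((K.f i '' α).indicator (1 : F → ℝ≥0∞)) := measurable_one.indicator hBm
  have i12 : Measurable (fun x => (K.g i '' α).indicator (1 : F → ℝ≥0∞) x
      + (K.g i '' α).indicator (1 : F → ℝ≥0∞) (T₂ x)) := i1.add i2
  have i45 : Measurable (fun x => α.indicator (1 : F → ℝ≥0∞) x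
      + (K.f i '' α).indicator (1 : F → ℝ≥0∞) x) := i4.add i5
  have r2 : ∫⁻ x, (K.g i '' α).indicator (1 : F → ℝ≥0∞) (T₂ x) ∂K.mu = K.mu (K.g i '' α) := by
    rw [← lintegral_map i1 m2, p2, lintegral_indicator_one hDm]
  have r3 : ∫⁻ x, (K.g i '' α).indicator (1 : F → ℝ≥0∞) (T₃ x) ∂K.mu = K.mu (K.g i '' α) := by
    rw [← lintegral_map i1 m3, p3, lintegral_indicator_one hDm]
  rw [lintegral_add_left i12, lintegral_add_left i1, lintegral_add_left i45,
    lintegral_add_left i4, lintegral_indicator_one hDm, r2, r3, lintegral_indicator_one hαm,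
    lintegral_indicator_one hBm] at hint
  have v1 : K.mu (K.g i '' α) = 6⁻¹ * K.lam α := K.mu_image (i, false) hαm hαA
  have v2 : K.mu (K.f i '' α) = 6⁻¹ * K.lam α := K.mu_image (i, true) hαm hαA
  have v3 : K.mu α = 6⁻¹ * (2 * K.lam α) := K.mu_sub_A hαm hαA
  rw [v1, v2, v3] at hint
  set a : ℝ≥0∞ := 6⁻¹ * K.lam α with ha
  have hafin : a ≠ ∞ := by
    rw [ha]
    exact ENNReal.mul_ne_top (by simp) (measure_ne_top _ _)
  have e1 : (6 : ℝ≥0∞)⁻¹ * (2 * K.lam α) = a + a := by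
    rw [ha]; ring
  rw [e1] at hint
  have e2 : a + a + a + 0 = a + a + a + a := by
    rw [add_zero]; exact hint
  have hfin3 : a + a + a ≠ ∞ := by simp [hafin]
  have e3 : 0 = a := (ENNReal.add_right_inj hfin3).mp e2
  rw [ha] at e3
  rcases mul_eq_zero.mp e3.symm with h | h
  · exact absurd h (by simp)
  · exact h

/-- There is no optimal Monge plan for `K.mu`. -/
theorem no_monge : ¬ HasOptimalMongePlan K.mu := by
  rintro ⟨T₂, T₃, m2, m3, p2, p3, hopt⟩
  obtain ⟨U, hUm, hU⟩ := K.exists_pot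
  have hperm := K.ae_perm hUm hU m2 m3 p2 p3 hopt
  have h1 := K.alpha_null m2 m3 p2 p3 hperm true
  have h2 := K.alpha_null m2 m3 p2 p3 hperm false
  have hpl : ∀ᵐ x ∂K.lam, K.IsPerm x (T₂ x) (T₃ x) := K.lam_ac_mu.ae_le hperm
  have h3 : ∀ᵐ x ∂K.lam, False := by
    have n1 : ∀ᵐ x ∂K.lam, x ∉ K.alpha T₂ T₃ true := measure_eq_zero_iff_ae_notMem.mp h1
    have n2 : ∀ᵐ x ∂K.lam, x ∉ K.alpha T₂ T₃ false := measure_eq_zero_iff_ae_notMem.mp h2
    filter_upwards [K.ae_lam_mem, hpl, n1, n2] with x hx hp ha hb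
    obtain ⟨j, s, hs, hcase⟩ := hp
    have nn : x ∉ K.alpha T₂ T₃ j := by cases j <;> assumption
    have nf : x ≠ K.f j s := K.A_ne_h (j, true) hx hs
    have ng : x ≠ K.g j s := K.A_ne_h (j, false) hx hs
    rcases hcase with ⟨h1, h2, h3⟩ | ⟨h1, h2, h3⟩ | ⟨h1, h2, h3⟩ | ⟨h1, h2, h3⟩ | ⟨h1, h2, h3⟩ |
      ⟨h1, h2, h3⟩
    · exact nn ⟨hx, Or.inr ⟨s, hs, h3.symm⟩⟩
    · exact nn ⟨hx, Or.inl ⟨s, hs, h2.symm⟩⟩
    · exact nf h1
    · exact nf h1
    · exact ng h1
    · exact ng h1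
  rw [ae_iff] at h3
  simp at h3

end Config

end Vale.Agent.P121
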